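import Vale.Agent.P032.R2.H245.House2

/-!
# P032 (T2*): a silent colour is impossible as soon as one class avoids the circle
-/

open Set Filter Topology Metric

noncomputable section

namespace Vale.Agent.P032.R2.H245

open Vale.Agent.P032.Six Vale.Agent.P032.S5.H767 Vale.Agent.P032.Words6.H704

variable {U : Fin 6 → Set ℂ} {T : ℂ → Set (Fin 6)} {z : ℂ}

/-- the names of the five active colours -/
theorem exists_hs (C : Six6 U T z)
    (hmin : ∀ z, 4 ≤ (T z).ncard → ∀ s, s ⊆ T z → s ≠ T z →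
      ¬ ∀ᶠ w in 𝓝 z, ∃ i ∈ s, w ∈ U i ∨ (w ∈ XX U ∧ i ∈ Pal U w)) {i : Fin 6}
    (hi : ∀ j, ¬ MC T z i j) :
    ∃ f : Fin 5 → Fin 6, Hs T z f i ∧ (∀ a, MC T z (f a) (f (a + 1))) ∧
      ((∀ a b, MC T z (f a) (f b) ↔ (b = a + 1 ∨ a = b + 1)) ∨
        (∀ a b, MC T z (f a) (f b) ↔
          (b = a + 1 ∨ a = b + 1 ∨ (a = 0 ∧ b = 2) ∨ (a = 2 ∧ b = 0)))) := by
  obtain ⟨f, hf, hfi, hfs, hM⟩ := silent C hmin hi
  refine ⟨f, ⟨hf, hfi, hfs, hi, ?_⟩, ?_, hM⟩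
  · intro a b hab
    rcases hM with h | h
    · rcases (h a b).1 hab with h1 | h1
      · exact Or.inl h1
      · exact Or.inr (Or.inl h1)
    · exact (h a b).1 hab
  · intro a
    rcases hM with h | h
    · exact (h a (a + 1)).2 (Or.inl rfl)
    · exact (h a (a + 1)).2 (Or.inl rfl)

/-- **The end of T2\*.** -/
theorem silent_false (C : Six6 U T z)
    (hmin : ∀ z, 4 ≤ (T z).ncard → ∀ s, s ⊆ T z → s ≠ T z →
      ¬ ∀ᶠ w in 𝓝 z, ∃ i ∈ s, w ∈ U i ∨ (w ∈ XX U ∧ i ∈ Pal U w)) {i : Fin 6}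
    (hi : ∀ j, ¬ MC T z i j)
    (h : ∀ f : Fin 5 → Fin 6, Hs T z f i → (∀ a, MC T z (f a) (f (a + 1))) →
      ((∀ a b, MC T z (f a) (f b) ↔ (b = a + 1 ∨ a = b + 1)) ∨
        (∀ a b, MC T z (f a) (f b) ↔
          (b = a + 1 ∨ a = b + 1 ∨ (a = 0 ∧ b = 2) ∨ (a = 2 ∧ b = 0)))) →
      (∃ j, Star T z {f j}) ∨ Star T z {f 1, f 3, f 4}) : False := by
  obtain ⟨f, H, hm, hM⟩ := exists_hs C hmin hi
  rcases h f H hm hM with ⟨j, hj⟩ | hK
  · exact star_single C (hm j) hj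
  · exact star_house C H hK

end Vale.Agent.P032.R2.H245
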