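import Vale.Agent.P032.R2.H245.Silent
import Vale.Agent.P032.R2.H616.Wind

/-!
# P032 (T2*): a clean point with six colours and a silent colour is of pentagon type

`pent`: the hypothesis `Pent T z c` of `R2.H616.Wind.wind`, with all five diagonals
`{c (m - 1), c (m + 1)}` broken pairs.
-/

open Set Filter Topology Metric

noncomputable section

namespace Vale.Agent.P032.R2.H245

open Vale.Agent.P032.Six Vale.Agent.P032.S5.H767 Vale.Agent.P032.Words6.H704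
  Vale.Agent.P032.R2.H616

variable {U : Fin 6 → Set ℂ} {T : ℂ → Set (Fin 6)} {z : ℂ}

/-- `x ↦ 3 x` -/
def g5 (x : ZMod 5) : Fin 5 := (3 : Fin 5) * (show Fin 5 from x)

theorem g5_inj : ∀ x y : ZMod 5, g5 x = g5 y → x = y := by decide

theorem g5_surj : ∀ a : Fin 5, ∃ x : ZMod 5, g5 x = a := by decide

theorem g5_pen : ∀ a b : ZMod 5, (g5 b = g5 a + 1 ∨ g5 a = g5 b + 1) ↔ (b = a + 2 ∨ a = b + 2) := by
  decide

theorem g5_hou : ∀ a b : ZMod 5, (g5 b = g5 a + 1 ∨ g5 a = g5 b + 1 ∨ (g5 a = 0 ∧ g5 b = 2) ∨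
    (g5 a = 2 ∧ g5 b = 0)) ↔ (b = a + 2 ∨ a = b + 2 ∨ (a = 0 ∧ b = 4) ∨ (a = 4 ∧ b = 0)) := by
  decide

/-- **The pentagon at a silent colour.** -/
theorem pent (C : Six6 U T z)
    (hmin : ∀ z, 4 ≤ (T z).ncard → ∀ s, s ⊆ T z → s ≠ T z →
      ¬ ∀ᶠ w in 𝓝 z, ∃ i ∈ s, w ∈ U i ∨ (w ∈ XX U ∧ i ∈ Pal U w)) {i : Fin 6}
    (hi : ∀ j, ¬ MC T z i j) :
    ∃ c : ZMod 5 → Fin 6, Pent T z c ∧ (∀ m, c m ≠ i) ∧ (∀ j, j = i ∨ ∃ m, c m = j) ∧
      (∀ m, MC T z (c (m - 1)) (c (m + 1))) ∧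
      ((∀ a b, MC T z (c a) (c b) ↔ b = a + 2 ∨ a = b + 2) ∨
        (∀ a b, MC T z (c a) (c b) ↔
          b = a + 2 ∨ a = b + 2 ∨ (a = 0 ∧ b = 4) ∨ (a = 4 ∧ b = 0))) := by
  obtain ⟨f, hf, hfi, hfs, hM⟩ := silent C hmin hi
  set c : ZMod 5 → Fin 6 := fun x => f (g5 x) with hc
  have hcinj : Function.Injective c := fun x y hxy => g5_inj x y (hf hxy)
  have hcs : ∀ j, j = i ∨ ∃ m, c m = j := by
    intro j
    rcases hfs j with h | ⟨a, ha⟩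
    · exact Or.inl h
    · obtain ⟨x, hx⟩ := g5_surj a
      exact Or.inr ⟨x, by show f (g5 x) = j; rw [hx, ha]⟩
  have hcM : (∀ a b, MC T z (c a) (c b) ↔ b = a + 2 ∨ a = b + 2) ∨
      (∀ a b, MC T z (c a) (c b) ↔
        b = a + 2 ∨ a = b + 2 ∨ (a = 0 ∧ b = 4) ∨ (a = 4 ∧ b = 0)) := by
    rcases hM with h | h
    · exact Or.inl fun a b => (h (g5 a) (g5 b)).trans (g5_pen a b)
    · exact Or.inr fun a b => (h (g5 a) (g5 b)).trans (g5_hou a b)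
  have hm : ∀ m, MC T z (c (m - 1)) (c (m + 1)) := by
    intro m
    have e : m + 1 = m - 1 + 2 := by ring
    rcases hcM with h | h
    · exact (h _ _).2 (Or.inl e)
    · exact (h _ _).2 (Or.inl e)
  refine ⟨c, ⟨hcinj, ?_⟩, fun m => hfi _, hcs, hm, hcM⟩
  intro x y hxy
  have hx : x ≠ i := fun h => hi y (h ▸ hxy)
  have hy : y ≠ i := fun h => hi x (mc_symm (h ▸ hxy))
  obtain ⟨a, rfl⟩ := (hcs x).resolve_left hx
  obtain ⟨b, rfl⟩ := (hcs y).resolve_left hy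
  have key : b = a + 2 ∨ a = b + 2 ∨ (a = 0 ∧ b = 4) ∨ (a = 4 ∧ b = 0) := by
    rcases hcM with h | h
    · rcases (h a b).1 hxy with h1 | h1
      · exact Or.inl h1
      · exact Or.inr (Or.inl h1)
    · exact (h a b).1 hxy
  rcases key with rfl | rfl | ⟨rfl, rfl⟩ | ⟨rfl, rfl⟩
  · left
    refine ⟨a + 1, Or.inl ⟨?_, ?_⟩⟩
    · rw [add_sub_cancel_right]
    · congr 1; ring
  · left
    refine ⟨b + 1, Or.inr ⟨?_, ?_⟩⟩
    · congr 1; ring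
    · rw [add_sub_cancel_right]
  · exact Or.inr (Or.inl ⟨rfl, rfl⟩)
  · exact Or.inr (Or.inr ⟨rfl, rfl⟩)

end Vale.Agent.P032.R2.H245
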