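import Vale.Agent.P032.Words6.H343.Rot2
import Vale.Agent.P032.R2.H245.Pent

/-!
# P032 (T2*): alternating triples without activity

The argument of `Words6.H343.rot2_core` for a clean point with six colours, without the hypothesis
that all colours occur in palettes on the circle.
-/

open Set Filter Topology Metric

noncomputable section

namespace Vale.Agent.P032.R2.H245

open Vale.Agent.P032.Six Vale.Agent.P032.S5.H767 Vale.Agent.P032.Words6.H704
  Vale.Agent.P032.Words6.H343 Vale.Agent.P032.Words6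

variable {U : Fin 6 → Set ℂ} {T : ℂ → Set (Fin 6)} {z : ℂ}

/-- **GAP3** from one partner of the missing colour. -/
theorem gap3x (C : Six6 U T z) {y w : ℂ} (hy : dist y z = 1) (h3 : (T y).ncard = 3)
    (h2 : (T (2 * z - y)).ncard = 2) {x : Fin 6} (hall : ∀ i, i ∈ T y ∨ i ∈ T (2 * z - y) ∨ i = x)
    (hw : dist w z = 1) (hxw : x ∈ Pal U w) (hwy : w ≠ y) (hwy' : w + y ≠ 2 * z) : False := by
  refine C.irr.gap3 (y := y) (v := w) (x := x) (Q := T (2 * z - y)) hy (by omega)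
    (fun i _ => hall i) ?_ hw hxw hwy hwy'
  exact (C.irr.pair_open h2 (fun j _ => C.all j) subset_rfl).mono fun q hq => by
    rw [← hq]; exact C.irr.sub q

/-- two points of the circle at an angle of 120 degrees are not on one line with the centre -/
theorem not_line {w : ℂ} {t : ℝ} (h1 : w = pt z t ∨ w + pt z t = 2 * z)
    (h2 : w = pt z (t + 2) ∨ w + pt z (t + 2) = 2 * z) : False := by
  have hs := S5.H220.pt_sum3 z t
  have hd := dist_pt z (t + 4)
  have hd0 := dist_pt z t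
  rw [dist_eq_norm] at hd hd0
  have key : ∀ a : ℂ, (pt z (t + 4) - z = -2 * (pt z t - z) ∨ pt z (t + 4) - z = 0) → False := by
    intro _ h
    rcases h with h | h
    · rw [h, norm_mul, hd0] at hd
      norm_num at hd
    · rw [h, norm_zero] at hd
      exact zero_ne_one hd
  rcases h1 with h1 | h1 <;> rcases h2 with h2 | h2
  · exact key 0 (Or.inl (by linear_combination hs - h1 + h2))
  · exact key 0 (Or.inr (by linear_combination hs + h1 - h2))
  · exact key 0 (Or.inr (by linear_combination hs - h1 + h2))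
  · exact key 0 (Or.inl (by linear_combination hs + h1 - h2))

/-- **Alternating triples.** -/
theorem rot2x (C : Six6 U T z) {A B : Set (Fin 6)}
    {s : Fin 6} (hA : A.ncard = 3) (hB : B.ncard = 3) (hs : A ∩ B = {s}) {u δ : ℝ}
    (hV : ∀ v, |v - u| < δ → ∀ n : ℤ, T (pt z (v + 2 * (n : ℝ))) ⊆ A ∧
      T (pt z (v + 2 * (n : ℝ) + 1)) ⊆ B)
    (hG : ∀ v, |v - u| < δ → ∀ n : ℤ, ¬ (T (pt z (v + 2 * (n : ℝ))) = A \ {s} ∧
      T (pt z (v + 2 * (n : ℝ) + 3)) = B \ {s}))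
    (hu : s ∈ T (pt z (u + 1))) {v0 : ℝ} (hv0 : |v0 - u| < δ)
    (h0 : ∀ n : ℤ, T (pt z (v0 + 2 * (n : ℝ) + 1)) ⊆ B \ {s}) : False := by
  have hsA : s ∈ A := (hs ▸ mem_singleton s : s ∈ A ∩ B).1
  have hsB : s ∈ B := (hs ▸ mem_singleton s : s ∈ A ∩ B).2
  have hA2 : (A \ {s}).ncard = 2 := by rw [Set.ncard_sdiff_singleton_of_mem hsA, hA]
  have hB2 : (B \ {s}).ncard = 2 := by rw [Set.ncard_sdiff_singleton_of_mem hsB, hB]
  have hdis : Disjoint A (B \ {s}) := by
    rw [Set.disjoint_left]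
    rintro i h1 ⟨h2, h3⟩
    have : i ∈ A ∩ B := ⟨h1, h2⟩
    rw [hs] at this
    exact h3 this
  obtain ⟨x, hxA, hxB, hall⟩ := H46.exists_sixth hA hB2 hdis
  have hz : z ∈ XX U := by
    by_contra hz
    obtain ⟨i, hi⟩ := C.irr.ne (pt z u)
    exact C.irr.mx.notMem' (C.irr.off z hz i (C.all i)) (by rw [dist_comm]; exact dist_pt z u)
      (C.irr.sub _ hi)
  obtain ⟨y, hy, hxy⟩ := C.irr.partner_XX hz x
  rw [dist_comm] at hy
  set O : Set ℝ := {v | T (pt z (v + 1)) ⊆ B \ {s}} ∩ ({v | T (pt z (v + 3)) ⊆ B \ {s}} ∩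
    {v | T (pt z (v + 5)) ⊆ B \ {s}}) with hOd
  have hO : IsOpen O := (isOpen_sub C.irr z _ 1).inter
    ((isOpen_sub C.irr z _ 3).inter (isOpen_sub C.irr z _ 5))
  have hOn : ∀ v ∈ O, ∀ n : ℤ, T (pt z (v + 2 * (n : ℝ) + 1)) ⊆ B \ {s} := by
    rintro v ⟨h1, h3, h5⟩ n
    have e : v + 2 * (n : ℝ) + 1 = v + 1 + 2 * (n : ℝ) := by ring
    rw [e]
    rcases pt_even z (v + 1) n with h | h | h <;> rw [h]
    · exact h1
    · have e3 : v + 1 + 2 = v + 3 := by ring
      rw [e3]; exact h3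
    · have e5 : v + 1 + 4 = v + 5 := by ring
      rw [e5]; exact h5
  have heq : ∀ v ∈ O, ∀ n : ℤ, T (pt z (v + 2 * (n : ℝ) + 1)) = B \ {s} := fun v hv n =>
    Set.eq_of_subset_of_ncard_le (hOn v hv n) (by rw [hB2]; exact H46.two_le C _)
      (Set.toFinite _)
  have huO : u ∉ O := fun h => (h.1 hu).2 rfl
  have hvO : v0 ∈ O := by
    refine ⟨?_, ?_, ?_⟩
    · have := h0 0
      rwa [Int.cast_zero, mul_zero, add_zero] at this
    · have := h0 1
      have e : v0 + 2 * ((1 : ℤ) : ℝ) + 1 = v0 + 3 := by push_cast; ring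
      rwa [e] at this
    · have := h0 2
      have e : v0 + 2 * ((2 : ℤ) : ℝ) + 1 = v0 + 5 := by push_cast; ring
      rwa [e] at this
  obtain ⟨p, τ, hpO, hpu, hpτ⟩ := S5.H46.exists_end hO huO hvO
  have hpδ : |p - u| < δ := lt_of_le_of_lt hpu hv0
  obtain ⟨o, ho, hoe⟩ : ∃ o : ℝ, (o = 1 ∨ o = -1) ∧ o = (if τ then 1 else -1) := by
    cases τ
    · exact ⟨-1, Or.inr rfl, by simp⟩
    · exact ⟨1, Or.inl rfl, by simp⟩
  rw [← hoe] at hpτ
  have hlim : Tendsto (fun t : ℝ => p + o * t) (𝓝[>] (0 : ℝ)) (𝓝 p) := by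
    have hc : Continuous fun t : ℝ => p + o * t := by fun_prop
    have h2 := (hc.tendsto 0).mono_left (nhdsWithin_le_nhds (s := Ioi (0 : ℝ)))
    rwa [mul_zero, add_zero] at h2
  -- colours at the end
  have hBp : ∀ n : ℤ, B \ {s} ⊆ T (pt z (p + 2 * (n : ℝ) + 1)) := by
    intro n i hi
    have hc : Continuous fun v : ℝ => pt z (v + 2 * (n : ℝ) + 1) :=
      (continuous_pt z).comp (by fun_prop)
    refine (C.irr.closed i).mem_of_tendsto ((hc.tendsto p).comp hlim) ?_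
    filter_upwards [hpτ] with t ht
    show i ∈ T (pt z (p + o * t + 2 * (n : ℝ) + 1))
    rw [heq _ ht n]; exact hi
  -- the even palettes contain `s`
  have hsE : ∀ m : ℤ, s ∈ T (pt z (p + 2 * (m : ℝ))) := by
    intro m
    by_contra hsm
    have h1 : T (pt z (p + 2 * (m : ℝ))) ⊆ A \ {s} := fun i hi =>
      ⟨(hV p hpδ m).1 hi, fun h => hsm (by rw [mem_singleton_iff] at h; rwa [← h])⟩
    have h2 : ∀ᶠ v in 𝓝 p, T (pt z (v + 2 * (m : ℝ))) ⊆ A \ {s} :=
      (isOpen_sub C.irr z (A \ {s}) (2 * (m : ℝ))).mem_nhds h1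
    have h3 : ∀ᶠ v in 𝓝 p, |v - u| < δ := by
      have hc : Continuous fun v : ℝ => |v - u| := by fun_prop
      exact (isOpen_lt hc continuous_const).mem_nhds hpδ
    obtain ⟨t, ht1, ht2, ht3⟩ := (hpτ.and (hlim.eventually (h2.and h3))).exists
    refine hG (p + o * t) ht3 m ⟨?_, ?_⟩
    · exact Set.eq_of_subset_of_ncard_le ht2 (by rw [hA2]; exact H46.two_le C _)
        (Set.toFinite _)
    · have := heq _ ht1 (m + 1)
      have e : p + o * t + 2 * ((m + 1 : ℤ) : ℝ) + 1 = p + o * t + 2 * (m : ℝ) + 3 := by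
        push_cast; ring
      rwa [e] at this
  have hA3 : ∀ m : ℤ, (T (pt z (p + 2 * (m : ℝ)))).ncard ≠ 2 → T (pt z (p + 2 * (m : ℝ))) = A := by
    intro m hm
    have h2 := H46.two_le C (p + 2 * (m : ℝ))
    refine Set.eq_of_subset_of_ncard_le (hV p hpδ m).1 ?_ (Set.toFinite _)
    rw [hA]; omega
  -- neighbours of an odd change
  have hc1 : ∀ n : ℤ, s ∈ T (pt z (p + 2 * (n : ℝ) + 1)) →
      T (pt z (p + 2 * (n : ℝ))) = A ∧ T (pt z (p + 2 * ((n + 1 : ℤ) : ℝ))) = A := by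
    intro n hn
    constructor
    · refine hA3 n fun h2 => ?_
      exact Set.disjoint_left.1 (H46.nb_pair C (p + 2 * (n : ℝ)) (Or.inl h2)) (hsE n) hn
    · refine hA3 (n + 1) fun h2 => ?_
      have e : p + 2 * ((n + 1 : ℤ) : ℝ) = p + 2 * (n : ℝ) + 1 + 1 := by push_cast; ring
      rw [e] at h2
      refine Set.disjoint_left.1 (H46.nb_pair C (p + 2 * (n : ℝ) + 1) (Or.inr h2)) hn ?_
      rw [← e]; exact hsE (n + 1)
  -- antipodes of an even change, off the line of `y`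
  have hc2 : ∀ m : ℤ, T (pt z (p + 2 * (m : ℝ))) = A →
      ¬ (y = pt z (p + 2 * (m : ℝ)) ∨ y + pt z (p + 2 * (m : ℝ)) = 2 * z) →
      s ∈ T (pt z (p + 2 * ((m + 1 : ℤ) : ℝ) + 1)) := by
    intro m hm hline
    by_contra hcon
    have e : p + 2 * ((m + 1 : ℤ) : ℝ) + 1 = p + 2 * (m : ℝ) + 3 := by push_cast; ring
    have h1 : T (pt z (p + 2 * (m : ℝ) + 3)) = B \ {s} := by
      rw [← e]
      refine Set.Subset.antisymm (fun i hi => ⟨(hV p hpδ (m + 1)).2 hi, fun h => hcon ?_⟩)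
        (hBp (m + 1))
      rw [mem_singleton_iff] at h; rwa [← h]
    rw [pt_three] at h1
    refine gap3x C (y := pt z (p + 2 * (m : ℝ))) (w := y) (x := x) (dist_pt z _) (by rw [hm, hA])
      (by rw [h1, hB2]) ?_ hy hxy (fun h => hline (Or.inl h)) (fun h => hline (Or.inr h))
    intro i
    rw [hm, h1]
    exact hall i
  obtain ⟨n, hn⟩ : ∃ n : ℤ, s ∈ T (pt z (p + 2 * (n : ℝ) + 1)) := by
    by_contra hcon
    push Not at hcon
    have key : ∀ n : ℤ, T (pt z (p + 2 * (n : ℝ) + 1)) ⊆ B \ {s} := fun n i hi =>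
      ⟨(hV p hpδ n).2 hi, fun h => hcon n (by rw [mem_singleton_iff] at h; rwa [← h])⟩
    refine hpO ⟨?_, ?_, ?_⟩
    · have := key 0
      rwa [Int.cast_zero, mul_zero, add_zero] at this
    · have := key 1
      have e : p + 2 * ((1 : ℤ) : ℝ) + 1 = p + 3 := by push_cast; ring
      rwa [e] at this
    · have := key 2
      have e : p + 2 * ((2 : ℤ) : ℝ) + 1 = p + 5 := by push_cast; ring
      rwa [e] at this
  have a0 := (hc1 n hn).1
  have a1 := (hc1 n hn).2
  have a2 : T (pt z (p + 2 * ((n + 1 + 1 : ℤ) : ℝ))) = A := by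
    by_cases hline : y = pt z (p + 2 * (n : ℝ)) ∨ y + pt z (p + 2 * (n : ℝ)) = 2 * z
    · have h2 : ¬ (y = pt z (p + 2 * ((n + 1 : ℤ) : ℝ)) ∨
          y + pt z (p + 2 * ((n + 1 : ℤ) : ℝ)) = 2 * z) := by
        intro h3
        have e : p + 2 * ((n + 1 : ℤ) : ℝ) = p + 2 * (n : ℝ) + 2 := by push_cast; ring
        rw [e] at h3
        exact not_line hline h3
      exact (hc1 (n + 1 + 1) (hc2 (n + 1) a1 h2)).1
    · exact (hc1 (n + 1) (hc2 n a0 hline)).2
  -- the three half branches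
  obtain ⟨η, hη, hsub⟩ := (mem_nhdsGT_iff_exists_Ioo_subset (a := (0 : ℝ))).1 hpτ
  have hη : (0 : ℝ) < η := hη
  have hpi : 0 < Real.pi / 3 := by positivity
  have hb : ∀ m : ℤ, T (pt z (p + 2 * (m : ℝ))) = A →
      S5.H450.HB T z (pt z (p + 2 * (m : ℝ) + 3)) o x := by
    intro m hm
    refine S5.H450.half_branch C.irr (dist_pt z _) ho (P := B \ {s}) (η := η * (Real.pi / 3))
      (mul_pos hη hpi) (fun t ht => ?_) ?_ ?_
    · have h1 : z + (pt z (p + 2 * (m : ℝ) + 3) - z) * cis (o * t) =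
          pt z (p + o * (t / (Real.pi / 3)) + 2 * ((m + 1 : ℤ) : ℝ) + 1) := by
        unfold pt
        have e1 : (p + o * (t / (Real.pi / 3)) + 2 * ((m + 1 : ℤ) : ℝ) + 1) * (Real.pi / 3) =
            (p + 2 * (m : ℝ) + 3) * (Real.pi / 3) + o * t := by
          push_cast
          field_simp
          ring
        rw [e1, S5.H767.cis_add]; ring
      rw [h1]
      have h2 : t / (Real.pi / 3) ∈ Ioo (0 : ℝ) η :=
        ⟨div_pos ht.1 hpi, by rw [div_lt_iff₀ hpi]; exact ht.2⟩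
      rw [heq _ (hsub h2) (m + 1)]
    · rw [← pt_three, show p + 2 * (m : ℝ) + 3 + 3 = p + 2 * (m : ℝ) + 6 by ring, pt_six, hm, hA]
    · rw [← pt_three, show p + 2 * (m : ℝ) + 3 + 3 = p + 2 * (m : ℝ) + 6 by ring, pt_six, hm]
      intro i _
      rcases hall i with h3 | h3 | h3
      · exact Or.inr (Or.inl h3)
      · exact Or.inr (Or.inr h3)
      · exact Or.inl h3
  have b0 := hb n a0
  have b1 := hb (n + 1) a1
  have b2 := hb (n + 1 + 1) a2
  refine S5.H220.three_hb C.irr hz (b := p + 2 * (n : ℝ) + 3) ho b0 ?_ ?_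
  · have e : p + 2 * (n : ℝ) + 3 + 2 = p + 2 * ((n + 1 : ℤ) : ℝ) + 3 := by push_cast; ring
    rw [e]; exact b1
  · have e : p + 2 * (n : ℝ) + 3 + 4 = p + 2 * ((n + 1 + 1 : ℤ) : ℝ) + 3 := by push_cast; ring
    rw [e]; exact b2

end Vale.Agent.P032.R2.H245
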