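import Vale.Agent.P032.R2.H245.Words
import Vale.Agent.P032.R2.H245.Alt

/-!
# P032 (T2*): the class of the colours `1, 3, 4` of the house

`z` is a clean point with six colours, the colour `i` is in no broken pair, and the broken pairs are
among the pairs `01, 12, 23, 34, 40, 02` of the other five colours.  If at every generic time the
palettes of two opposite points of the circle do not contain together the colours `1, 3, 4`, there
is a contradiction (`star_house`).
-/

open Set Filter Topology Metric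

noncomputable section

namespace Vale.Agent.P032.R2.H245

open Vale.Agent.P032.Six Vale.Agent.P032.S5.H767 Vale.Agent.P032.Words6.H704
  Vale.Agent.P032.Words6.H343 Vale.Agent.P032.Words6

variable {U : Fin 6 → Set ℂ} {T : ℂ → Set (Fin 6)} {z : ℂ} {f : Fin 5 → Fin 6} {i : Fin 6}

/-- the broken pairs are among the letters of the house with the names `f` -/
structure Hs (T : ℂ → Set (Fin 6)) (z : ℂ) (f : Fin 5 → Fin 6) (i : Fin 6) : Prop where
  inj : Function.Injective f
  ne : ∀ a, f a ≠ i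
  all : ∀ j, j = i ∨ ∃ a, f a = j
  sil : ∀ j, ¬ MC T z i j
  mc : ∀ a b, MC T z (f a) (f b) → (b = a + 1 ∨ a = b + 1 ∨ (a = 0 ∧ b = 2) ∨ (a = 2 ∧ b = 0))

/-- the colours of a mask -/
def S (f : Fin 5 → Fin 6) (n : ℕ) : Set (Fin 6) := f '' (Fs n : Set (Fin 5))

theorem mem_S (hf : Function.Injective f) {n : ℕ} {a : Fin 5} : f a ∈ S f n ↔ a ∈ Fs n := by
  constructor
  · rintro ⟨b, hb, h⟩
    rw [← hf h]; exact hb
  · exact fun h => ⟨a, h, rfl⟩

theorem ncard_S (hf : Function.Injective f) {n : ℕ} (hn : n < 32) : (S f n).ncard = pc n := by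
  unfold S
  rw [Set.ncard_image_of_injective _ hf, Set.ncard_coe_finset, Fs_card n hn]

theorem S_lor (m n : ℕ) : S f (Nat.lor m n) = S f m ∪ S f n := by
  unfold S
  rw [Fs_lor, Finset.coe_union, Set.image_union]

theorem S_land (hf : Function.Injective f) (m n : ℕ) : S f (Nat.land m n) = S f m ∩ S f n := by
  unfold S
  rw [Fs_land, Finset.coe_inter, Set.image_inter hf]

theorem letter_tab : ∀ a b : Fin 5, (b = a + 1 ∨ a = b + 1 ∨ (a = 0 ∧ b = 2) ∨ (a = 2 ∧ b = 0)) →
    ∃ n ∈ ([3, 6, 12, 24, 17, 5] : List ℕ), Fs n = {a, b} := by decide +kernel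

theorem isL_of_mem {n : ℕ} (h : n ∈ ([3, 6, 12, 24, 17, 5] : List ℕ)) : IsL n := by
  simpa [IsL] using h

/-- the mask of a broken pair -/
theorem Hs.letter (H : Hs T z f i) {x y : Fin 6} (h : MC T z x y) :
    ∃ n, IsL n ∧ ({x, y} : Set (Fin 6)) = S f n := by
  have hx : x ≠ i := fun e => H.sil y (e ▸ h)
  have hy : y ≠ i := fun e => H.sil x (mc_symm (e ▸ h))
  obtain ⟨a, rfl⟩ := (H.all x).resolve_left hx
  obtain ⟨b, rfl⟩ := (H.all y).resolve_left hy
  obtain ⟨n, hn, hF⟩ := letter_tab a b (H.mc a b h)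
  refine ⟨n, isL_of_mem hn, ?_⟩
  unfold S
  rw [hF, Finset.coe_insert, Finset.coe_singleton, Set.image_pair]

/-- a good word at the time `u` -/
structure Wd (T : ℂ → Set (Fin 6)) (z : ℂ) (f : Fin 5 → Fin 6) (u : ℝ) (x : Fin 6 → ℕ) : Prop where
  isL : ∀ k, IsL (x k)
  sub : ∀ k : Fin 6, S f (x k) ⊆ T (pt z (u + (k.val : ℝ)))
  dj : ∀ k, dj (x k) (x (k + 1)) = true
  cov : ∀ k, cov (x k) (x (k + 3)) = false

theorem dj_of (hf : Function.Injective f) {m n : ℕ} (hm : IsL m) (h : Disjoint (S f m) (S f n)) :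
    dj m n = true := by
  unfold dj
  rw [Nat.beq_eq]
  refine Fs_empty _ (land_lt hm.lt) ?_
  rw [Fs_land]
  ext a
  simp only [Finset.mem_inter, Finset.notMem_empty, iff_false, not_and]
  intro h1 h2
  exact Set.disjoint_left.1 h ((mem_S hf).2 h1) ((mem_S hf).2 h2)

theorem gn_int {u : ℝ} (hu : Gn T z u) (m : ℕ) : Gn T z (u + m) := by
  induction m with
  | zero => simpa using hu
  | succ m ih =>
    have := ih.shift
    push_cast
    rwa [← add_assoc]

/-- the hypothesis at all generic times, for opposite places -/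
def Star (T : ℂ → Set (Fin 6)) (z : ℂ) (K : Set (Fin 6)) : Prop :=
  ∀ u, Gn T z u → ¬ K ⊆ T (pt z u) ∪ T (pt z (u + 3))

/-- the hypothesis off a countable set of times -/
theorem star_of {K : Set (Fin 6)} {D : Set ℝ} (hD : D.Countable)
    (h : ∀ u, Gn T z u → u ∉ D → ¬ K ⊆ T (pt z u) ∪ T (pt z (u + 3))) : Star T z K := by
  intro u hu hK
  have h0 := hu 0
  have h3 := hu 3
  have e0 : u + ((0 : Fin 6).val : ℝ) = u := by
    show u + ((0 : ℕ) : ℝ) = u
    push_cast; ring
  have e3 : u + ((3 : Fin 6).val : ℝ) = u + 3 := by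
    show u + ((3 : ℕ) : ℝ) = u + 3
    push_cast; ring
  rw [e0] at h0
  rw [e3] at h3
  have hc : Tendsto (fun v : ℝ => v + 3) (𝓝 u) (𝓝 (u + 3)) := by
    have : Continuous fun v : ℝ => v + 3 := by fun_prop
    exact this.tendsto u
  have h4 := hc.eventually h3
  have h5 : ∀ᶠ v in 𝓝 u, Gn T z v := gn_open.mem_nhds hu
  have hd : Dense Dᶜ := hD.dense_compl ℝ
  obtain ⟨v, ⟨⟨hv0, hv3⟩, hvG⟩, hvD⟩ := ((h0.and h4).and h5).and_frequently
    (mem_closure_iff_frequently.1 (hd u)) |>.exists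
  refine h v hvG hvD ?_
  rw [hv0, hv3]
  exact hK

theorem exists_wd (C : Six6 U T z) (H : Hs T z f i) (hst : Star T z {f 1, f 3, f 4}) {u : ℝ}
    (hu : Gn T z u) : ∃ x, Wd T z f u x := by
  obtain ⟨a, ha⟩ := C.exists_sel u
  have hl := C.legM hu ha
  have h1 : ∀ k, ∃ n, IsL n ∧ a k = S f n := by
    intro k
    obtain ⟨p, q, hpq, he⟩ := (ha k).1
    obtain ⟨n, hn, h2⟩ := H.letter hpq
    exact ⟨n, hn, by rw [he, h2]⟩
  choose x hx hax using h1
  refine ⟨x, hx, fun k => ?_, fun k => ?_, fun k => ?_⟩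
  · rw [← hax k]; exact (ha k).2
  · refine dj_of H.inj (hx k) ?_
    rw [← hax k, ← hax (k + 1)]
    exact hl.2 k
  · rw [← Bool.not_eq_true]
    intro hcov
    unfold cov at hcov
    rw [Nat.beq_eq] at hcov
    obtain ⟨m1, m3, m4⟩ := Fs_26 _ (lor_lt (hx k).lt (hx (k + 3)).lt) hcov
    have hm : ∀ c, c ∈ Fs (Nat.lor (x k) (x (k + 3))) →
        f c ∈ T (pt z (u + (k.val : ℝ))) ∪ T (pt z (u + (k.val : ℝ) + 3)) := by
      intro c hc
      rw [Fs_lor, Finset.mem_union] at hc
      rcases hc with hc | hc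
      · left
        exact (ha k).2 (by rw [hax k]; exact (mem_S H.inj).2 hc)
      · right
        rw [← H46.pt_add3]
        exact (ha (k + 3)).2 (by rw [hax (k + 3)]; exact (mem_S H.inj).2 hc)
    refine hst (u + (k.val : ℝ)) (gn_int hu k.val) ?_
    rintro _ (rfl | rfl | rfl)
    · exact hm 1 m1
    · exact hm 3 m3
    · exact hm 4 m4

theorem wd_shift {u : ℝ} {x : Fin 6 → ℕ} (h : Wd T z f u x) :
    Wd T z f (u + 1) (fun k => x (k + 1)) := by
  refine ⟨fun k => h.isL _, fun k => ?_, fun k => h.dj _, fun k => ?_⟩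
  · have h2 := h.sub (k + 1)
    rw [pt_fin] at h2
    have e : u + 1 + (k.val : ℝ) = u + (k.val : ℝ) + 1 := by ring
    rw [e]; exact h2
  · have := h.cov (k + 1)
    have e : k + 1 + 3 = k + 3 + 1 := by rw [add_assoc, add_comm 1 3, ← add_assoc]
    rw [e] at this
    exact this

end Vale.Agent.P032.R2.H245
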