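import Vale.Agent.P032.R2.H245.House

/-!
# P032 (T2*): the class of the colours `1, 3, 4` of the house, end of the proof
-/

open Set Filter Topology Metric

noncomputable section

namespace Vale.Agent.P032.R2.H245

open Vale.Agent.P032.Six Vale.Agent.P032.S5.H767 Vale.Agent.P032.Words6.H704
  Vale.Agent.P032.Words6.H343 Vale.Agent.P032.Words6

variable {U : Fin 6 → Set ℂ} {T : ℂ → Set (Fin 6)} {z : ℂ} {f : Fin 5 → Fin 6} {i : Fin 6}

theorem pt_mod (z : ℂ) (n : ℤ) : ∃ k : Fin 6, (k.val : ℤ) % 2 = n % 2 ∧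
    ∀ t : ℝ, pt z (t + (n : ℝ)) = pt z (t + (k.val : ℝ)) := by
  obtain ⟨q, r, hr0, hr6, hn⟩ : ∃ q r : ℤ, 0 ≤ r ∧ r < 6 ∧ n = r + 6 * q :=
    ⟨n / 6, n % 6, by omega, by omega, by omega⟩
  obtain ⟨m, rfl⟩ := Int.eq_ofNat_of_zero_le hr0
  refine ⟨⟨m, by omega⟩, ?_, fun t => ?_⟩
  · show (m : ℤ) % 2 = n % 2
    omega
  · show pt z (t + (n : ℝ)) = pt z (t + (m : ℝ))
    rw [hn, ← pt_int z (t + (m : ℝ)) q]
    congr 1
    push_cast
    ring

theorem gn_ev {v : ℝ} (hg : Gn T z v) (n : ℤ) :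
    ∀ᶠ w in 𝓝 (v + (n : ℝ)), T (pt z w) = T (pt z (v + (n : ℝ))) := by
  obtain ⟨k, -, hk⟩ := pt_mod z n
  have hc : Tendsto (fun w : ℝ => w - (n : ℝ) + (k.val : ℝ)) (𝓝 (v + (n : ℝ)))
      (𝓝 (v + (k.val : ℝ))) := by
    have : Continuous fun w : ℝ => w - (n : ℝ) + (k.val : ℝ) := by fun_prop
    have h5 := this.tendsto (v + (n : ℝ))
    have e : v + (n : ℝ) - (n : ℝ) + (k.val : ℝ) = v + (k.val : ℝ) := by ring
    rwa [e] at h5
  filter_upwards [hc.eventually (hg k)] with w hw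
  rw [hk v, ← hw, ← hk (w - (n : ℝ))]
  congr 2; ring

/-- the neighbourhood of a time in which the palettes are inside the ones of the time -/
theorem exists_delta (C : Six6 U T z) (u : ℝ) : ∃ δ > 0, ∀ v, |v - u| < δ → ∀ n : ℤ,
    T (pt z (v + (n : ℝ))) ⊆ T (pt z (u + (n : ℝ))) := by
  have h1 : ∀ᶠ v in 𝓝 u, ∀ k : Fin 6, T (pt z (v + (k.val : ℝ))) ⊆
      T (pt z (u + (k.val : ℝ))) := by
    rw [eventually_all]
    intro k
    have hc : Continuous fun v : ℝ => pt z (v + (k.val : ℝ)) :=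
      (continuous_pt z).comp (by fun_prop)
    exact (hc.tendsto u).eventually (C.irr.nhd _)
  obtain ⟨δ, hδ, hb⟩ := Metric.eventually_nhds_iff.1 h1
  refine ⟨δ, hδ, fun v hv n => ?_⟩
  obtain ⟨k, -, hk⟩ := pt_mod z n
  rw [hk v, hk u]
  exact hb (by rw [Real.dist_eq]; exact hv) k

/-- the palettes of an alternating word -/
theorem per_sub {v : ℝ} {x : Fin 6 → ℕ} (hw : Wd T z f v x) {a b : ℕ}
    (h : per (x 0) (x 1) (x 2) (x 3) (x 4) (x 5) a b = true) (n : ℤ) :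
    (n % 2 = 0 → S f a ⊆ T (pt z (v + (n : ℝ)))) ∧
      (n % 2 = 1 → S f b ⊆ T (pt z (v + (n : ℝ)))) := by
  unfold per at h
  simp only [Bool.and_eq_true, Nat.beq_eq] at h
  obtain ⟨⟨⟨⟨⟨h0, h1⟩, h2⟩, h3⟩, h4⟩, h5⟩ := h
  obtain ⟨k, hk2, hk⟩ := pt_mod z n
  rw [hk v]
  have hs := hw.sub k
  fin_cases k
  · refine ⟨fun _ => ?_, fun h => absurd (hk2.trans h) (by decide)⟩
    rw [← h0]; exact hs
  · refine ⟨fun h => absurd (hk2.trans h) (by decide), fun _ => ?_⟩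
    rw [← h1]; exact hs
  · refine ⟨fun _ => ?_, fun h => absurd (hk2.trans h) (by decide)⟩
    rw [← h2]; exact hs
  · refine ⟨fun h => absurd (hk2.trans h) (by decide), fun _ => ?_⟩
    rw [← h3]; exact hs
  · refine ⟨fun _ => ?_, fun h => absurd (hk2.trans h) (by decide)⟩
    rw [← h4]; exact hs
  · refine ⟨fun h => absurd (hk2.trans h) (by decide), fun _ => ?_⟩
    rw [← h5]; exact hs

/-- two alternating words below the same palettes -/
theorem alt_false (C : Six6 U T z) (H : Hs T z f i) (hst : Star T z {f 1, f 3, f 4}) {u δ : ℝ}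
    (hN : ∀ v, |v - u| < δ → ∀ n : ℤ, T (pt z (v + (n : ℝ))) ⊆ T (pt z (u + (n : ℝ))))
    {v v' : ℝ} (hv : |v - u| < δ) (hv' : |v' - u| < δ) (hg : Gn T z v) {e' o' : ℕ}
    (hcase : (e' = 3 ∧ o' = 12) ∨ (e' = 6 ∧ o' = 17))
    (hx : ∀ n : ℤ, (n % 2 = 0 → S f 5 ⊆ T (pt z (v + (n : ℝ)))) ∧
      (n % 2 = 1 → S f 24 ⊆ T (pt z (v + (n : ℝ)))))
    (hy : ∀ n : ℤ, (n % 2 = 0 → S f e' ⊆ T (pt z (v' + (n : ℝ)))) ∧
      (n % 2 = 1 → S f o' ⊆ T (pt z (v' + (n : ℝ))))) : False := by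
  have hle : ∀ w : ℝ, (T (pt z w)).ncard ≤ 3 := fun w => H46.le_three C w
  -- the palettes at the time `u`
  have hA : ∀ n : ℤ, n % 2 = 0 → T (pt z (u + (n : ℝ))) = S f 7 := by
    intro n hn
    have h1 : S f (Nat.lor 5 e') ⊆ T (pt z (u + (n : ℝ))) := by
      rw [S_lor]
      exact union_subset (((hx n).1 hn).trans (hN v hv n)) (((hy n).1 hn).trans (hN v' hv' n))
    have h2 : Nat.lor 5 e' = 7 := by rcases hcase with ⟨rfl, -⟩ | ⟨rfl, -⟩ <;> decide
    rw [h2] at h1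
    refine (Set.eq_of_subset_of_ncard_le h1 ?_ (Set.toFinite _)).symm
    rw [ncard_S H.inj (by norm_num)]
    exact hle _
  obtain ⟨b, s, hb, hb3, hsb, hs5, hso, hK⟩ : ∃ (b : ℕ) (s : Fin 5), Nat.lor 24 o' = b ∧
      (b < 32 ∧ pc b = 3) ∧ (∀ a, a ∈ Fs 7 ∧ a ∈ Fs b ↔ a = s) ∧ s ∈ Fs 5 ∧ s ∈ Fs o' ∧
      ∀ a : Fin 5, a = 1 ∨ a = 3 ∨ a = 4 → (a ∈ Fs 7 ∧ a ≠ s) ∨ (a ∈ Fs b ∧ a ≠ s) := by
    rcases hcase with ⟨-, rfl⟩ | ⟨-, rfl⟩
    · exact ⟨28, 2, by decide, by decide, by decide, by decide, by decide, by decide⟩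
    · exact ⟨25, 0, by decide, by decide, by decide, by decide, by decide, by decide⟩
  have hB : ∀ n : ℤ, n % 2 = 1 → T (pt z (u + (n : ℝ))) = S f b := by
    intro n hn
    have h1 : S f (Nat.lor 24 o') ⊆ T (pt z (u + (n : ℝ))) := by
      rw [S_lor]
      exact union_subset (((hx n).2 hn).trans (hN v hv n)) (((hy n).2 hn).trans (hN v' hv' n))
    rw [hb] at h1
    refine (Set.eq_of_subset_of_ncard_le h1 ?_ (Set.toFinite _)).symm
    rw [ncard_S H.inj hb3.1, hb3.2]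
    exact hle _
  have hAc : (S f 7).ncard = 3 := by rw [ncard_S H.inj (by norm_num)]; rfl
  have hBc : (S f b).ncard = 3 := by rw [ncard_S H.inj hb3.1, hb3.2]
  have hs : S f 7 ∩ S f b = {f s} := by
    ext j
    rw [mem_singleton_iff]
    constructor
    · rintro ⟨⟨a, ha, rfl⟩, h2⟩
      rw [(hsb a).1 ⟨ha, (mem_S H.inj).1 h2⟩]
    · rintro rfl
      obtain ⟨h1, h2⟩ := (hsb s).2 rfl
      exact ⟨(mem_S H.inj).2 h1, (mem_S H.inj).2 h2⟩
  have e2 : ∀ (t : ℝ) (n : ℤ), t + 2 * (n : ℝ) = t + ((2 * n : ℤ) : ℝ) := fun t n => by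
    push_cast; ring
  have e21 : ∀ (t : ℝ) (n : ℤ), t + 2 * (n : ℝ) + 1 = t + ((2 * n + 1 : ℤ) : ℝ) := fun t n => by
    push_cast; ring
  refine rot2x C hAc hBc hs (u := u) (δ := δ) (v0 := v) ?_ ?_ ?_ hv ?_
  · intro w hw n
    constructor
    · rw [e2, ← hA (2 * n) (by omega)]
      exact hN w hw _
    · rw [e21, ← hB (2 * n + 1) (by omega)]
      exact hN w hw _
  · rintro w - n ⟨h1, h2⟩
    set t := w + 2 * (n : ℝ) with ht
    have k1 : ∀ᶠ t' in 𝓝 t, T (pt z t') ⊆ S f 7 \ {f s} := by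
      rw [← h1]
      exact ((continuous_pt z).tendsto t).eventually (C.irr.nhd _)
    have k2 : ∀ᶠ t' in 𝓝 t, T (pt z (t' + 3)) ⊆ S f b \ {f s} := by
      rw [← h2]
      have hc : Continuous fun t' : ℝ => pt z (t' + 3) := (continuous_pt z).comp (by fun_prop)
      exact (hc.tendsto t).eventually (C.irr.nhd _)
    have hsA : f s ∈ S f 7 := (hs ▸ mem_singleton (f s) : f s ∈ S f 7 ∩ S f b).1
    have hsB : f s ∈ S f b := (hs ▸ mem_singleton (f s) : f s ∈ S f 7 ∩ S f b).2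
    have hA2 : (S f 7 \ {f s}).ncard = 2 := by rw [Set.ncard_sdiff_singleton_of_mem hsA, hAc]
    have hB2 : (S f b \ {f s}).ncard = 2 := by rw [Set.ncard_sdiff_singleton_of_mem hsB, hBc]
    obtain ⟨t', ⟨⟨l1, l2⟩, lG⟩⟩ := ((k1.and k2).and_frequently
      (mem_closure_iff_frequently.1 (C.gn_dense t))).exists
    have m1 : T (pt z t') = S f 7 \ {f s} := Set.eq_of_subset_of_ncard_le l1
      (by rw [hA2]; exact H46.two_le C _) (Set.toFinite _)
    have m2 : T (pt z (t' + 3)) = S f b \ {f s} := Set.eq_of_subset_of_ncard_le l2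
      (by rw [hB2]; exact H46.two_le C _) (Set.toFinite _)
    refine hst t' lG ?_
    rw [m1, m2]
    have hmem : ∀ a : Fin 5, a = 1 ∨ a = 3 ∨ a = 4 →
        f a ∈ (S f 7 \ {f s}) ∪ (S f b \ {f s}) := by
      intro a ha
      rcases hK a ha with ⟨h3, h4⟩ | ⟨h3, h4⟩
      · exact Or.inl ⟨(mem_S H.inj).2 h3, fun h => h4 (H.inj h)⟩
      · exact Or.inr ⟨(mem_S H.inj).2 h3, fun h => h4 (H.inj h)⟩
    rintro _ (rfl | rfl | rfl)
    · exact hmem 1 (by decide)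
    · exact hmem 3 (by decide)
    · exact hmem 4 (by decide)
  · have h1 := hB 1 (by decide)
    rw [Int.cast_one] at h1
    rw [h1]
    exact (mem_S H.inj).2 ((hsb s).2 rfl).2
  · intro n j hj
    rw [e21] at hj
    have h1 := hN v hv _ hj
    rw [hB _ (by omega)] at h1
    refine ⟨h1, fun h2 => ?_⟩
    rw [mem_singleton_iff] at h2
    have h3 : f s ∈ T (pt z (v + ((2 * n : ℤ) : ℝ))) :=
      ((hx (2 * n)).1 (by omega)) ((mem_S H.inj).2 hs5)
    have h4 := C.disj (gn_ev hg (2 * n))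
    have e : v + ((2 * n : ℤ) : ℝ) + 1 = v + ((2 * n + 1 : ℤ) : ℝ) := by push_cast; ring
    rw [e] at h4
    exact Set.disjoint_left.1 h4 h3 (h2 ▸ hj)

theorem alt1_false (C : Six6 U T z) (H : Hs T z f i) (hst : Star T z {f 1, f 3, f 4}) {u δ : ℝ}
    (hN : ∀ v, |v - u| < δ → ∀ n : ℤ, T (pt z (v + (n : ℝ))) ⊆ T (pt z (u + (n : ℝ))))
    {v v' : ℝ} (hv : |v - u| < δ) (hv' : |v' - u| < δ) (hg : Gn T z v) {x y : Fin 6 → ℕ}
    (hx : Wd T z f v x) (hy : Wd T z f v' y)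
    (h : alt1 (x 0) (x 1) (x 2) (x 3) (x 4) (x 5) (y 0) (y 1) (y 2) (y 3) (y 4) (y 5) = true) :
    False := by
  -- the shifted data
  have hN1 : ∀ w, |w - (u + 1)| < δ → ∀ n : ℤ,
      T (pt z (w + (n : ℝ))) ⊆ T (pt z (u + 1 + (n : ℝ))) := by
    intro w hw n
    have h1 := hN (w - 1) (by rw [show w - 1 - u = w - (u + 1) by ring]; exact hw) (n + 1)
    have e1 : w - 1 + ((n + 1 : ℤ) : ℝ) = w + (n : ℝ) := by push_cast; ring
    have e2 : u + ((n + 1 : ℤ) : ℝ) = u + 1 + (n : ℝ) := by push_cast; ring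
    rwa [e1, e2] at h1
  have hshift : ∀ (w : ℝ) (a b : ℕ), (∀ n : ℤ, (n % 2 = 0 → S f b ⊆ T (pt z (w + (n : ℝ)))) ∧
      (n % 2 = 1 → S f a ⊆ T (pt z (w + (n : ℝ))))) →
      ∀ n : ℤ, (n % 2 = 0 → S f a ⊆ T (pt z (w + 1 + (n : ℝ)))) ∧
      (n % 2 = 1 → S f b ⊆ T (pt z (w + 1 + (n : ℝ)))) := by
    intro w a b hw n
    have e1 : w + ((n + 1 : ℤ) : ℝ) = w + 1 + (n : ℝ) := by push_cast; ring
    have h1 := hw (n + 1)
    rw [e1] at h1
    exact ⟨fun h => h1.2 (by omega), fun h => h1.1 (by omega)⟩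
  have ha : ∀ w : ℝ, |w - u| < δ → |w + 1 - (u + 1)| < δ := fun w hw => by
    rw [add_sub_add_right_eq_sub]; exact hw
  unfold alt1 at h
  simp only [Bool.or_eq_true, Bool.and_eq_true] at h
  rcases h with ⟨h1, h2 | h2⟩ | ⟨h1, h2 | h2⟩
  · exact alt_false C H hst hN hv hv' hg (Or.inl ⟨rfl, rfl⟩) (per_sub hx h1) (per_sub hy h2)
  · exact alt_false C H hst hN hv hv' hg (Or.inr ⟨rfl, rfl⟩) (per_sub hx h1) (per_sub hy h2)
  · exact alt_false C H hst hN1 (ha v hv) (ha v' hv') hg.shift (Or.inl ⟨rfl, rfl⟩)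
      (hshift v _ _ (per_sub hx h1)) (hshift v' _ _ (per_sub hy h2))
  · exact alt_false C H hst hN1 (ha v hv) (ha v' hv') hg.shift (Or.inr ⟨rfl, rfl⟩)
      (hshift v _ _ (per_sub hx h1)) (hshift v' _ _ (per_sub hy h2))

/-- the class is locally constant -/
theorem loc (C : Six6 U T z) (H : Hs T z f i) (hst : Star T z {f 1, f 3, f 4}) (u : ℝ) :
    ∃ δ > 0, ∀ v v', |v - u| < δ → |v' - u| < δ → Gn T z v → Gn T z v' → ∀ x y,
      Wd T z f v x → Wd T z f v' y → cl (x 0) (x 1) = cl (y 0) (y 1) := by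
  obtain ⟨δ, hδ, hN⟩ := exists_delta C u
  refine ⟨δ, hδ, fun v v' hv hv' hg hg' x y hx hy => ?_⟩
  have hNk : ∀ w, |w - u| < δ → ∀ k : Fin 6, T (pt z (w + (k.val : ℝ))) ⊆
      T (pt z (u + (k.val : ℝ))) := by
    intro w hw k
    have := hN w hw (k.val : ℤ)
    rwa [Int.cast_natCast] at this
  have hsub : ∀ k : Fin 6, S f (Nat.lor (x k) (y k)) ⊆ T (pt z (u + (k.val : ℝ))) := by
    intro k
    rw [S_lor]
    exact union_subset ((hx.sub k).trans (hNk v hv k)) ((hy.sub k).trans (hNk v' hv' k))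
  have hlt : ∀ k : Fin 6, Nat.lor (x k) (y k) < 32 := fun k => lor_lt (hx.isL k).lt (hy.isL k).lt
  have hc3 : ∀ k, c3 (x k) (y k) = true := by
    intro k
    unfold c3
    rw [Nat.ble_eq, ← ncard_S H.inj (hlt k)]
    exact (Set.ncard_le_ncard (hsub k) (Set.toFinite _)).trans (H46.le_three C _)
  have hn1 : ∀ k, n1 (x k) (y k) (x (k + 1)) (y (k + 1)) = true := by
    intro k
    unfold n1
    rw [Nat.ble_eq, ← ncard_S H.inj (land_lt (hlt k)), S_land H.inj]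
    have h2 := hsub (k + 1)
    rw [pt_fin] at h2
    exact (Set.ncard_le_ncard (inter_subset_inter (hsub k) h2) (Set.toFinite _)).trans
      (H46.nb_one C _)
  rcases words2 hx.isL hy.isL hx.dj hy.dj hx.cov hy.cov hc3 hn1 with h | h | h
  · exact h
  · exact (alt1_false C H hst hN hv hv' hg hx hy h).elim
  · exact (alt1_false C H hst hN hv' hv hg' hy hx h).elim

/-- **The class of the colours `1, 3, 4` is impossible.** -/
theorem star_house (C : Six6 U T z) (H : Hs T z f i) (hst : Star T z {f 1, f 3, f 4}) : False := by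
  choose δ hδ hl using loc C H hst
  -- the value near `u`
  have hval : ∀ u : ℝ, ∃ c : ℕ, ∀ v, |v - u| < δ u → Gn T z v → ∀ x, Wd T z f v x →
      cl (x 0) (x 1) = c := by
    intro u
    obtain ⟨v0, hv0, hg0⟩ := Metric.dense_iff.1 C.gn_dense u (δ u) (hδ u)
    rw [Metric.mem_ball, Real.dist_eq] at hv0
    have hg0 : Gn T z v0 := hg0
    obtain ⟨x0, hx0⟩ := exists_wd C H hst hg0
    exact ⟨cl (x0 0) (x0 1), fun v hv hg x hx => hl u v v0 hv hv0 hg hg0 x x0 hx hx0⟩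
  choose c hc using hval
  have hloc : IsLocallyConstant c := by
    rw [IsLocallyConstant.iff_eventually_eq]
    intro u
    have h1 : ∀ᶠ w in 𝓝 u, |w - u| < δ u := by
      have := Metric.ball_mem_nhds u (hδ u)
      filter_upwards [this] with w hw
      rwa [Metric.mem_ball, Real.dist_eq] at hw
    filter_upwards [h1] with w hw
    have h2 : ∀ᶠ v in 𝓝 w, |v - u| < δ u ∧ |v - w| < δ w := by
      have a1 : Continuous fun v : ℝ => |v - u| := by fun_prop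
      have a2 : Continuous fun v : ℝ => |v - w| := by fun_prop
      have b1 : ∀ᶠ v in 𝓝 w, |v - u| < δ u := (isOpen_lt a1 continuous_const).mem_nhds hw
      have b2 : ∀ᶠ v in 𝓝 w, |v - w| < δ w := (isOpen_lt a2 continuous_const).mem_nhds (by
        show |w - w| < δ w
        rw [sub_self, abs_zero]
        exact hδ w)
      exact b1.and b2
    obtain ⟨v, ⟨hv1, hv2⟩, hg⟩ := (h2.and_frequently
      (mem_closure_iff_frequently.1 (C.gn_dense w))).exists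
    have hg : Gn T z v := hg
    obtain ⟨x, hx⟩ := exists_wd C H hst hg
    rw [← hc u v hv1 hg x hx, ← hc w v hv2 hg x hx]
  obtain ⟨u, hu⟩ := C.gn_dense.nonempty
  have hu : Gn T z u := hu
  obtain ⟨x, hx⟩ := exists_wd C H hst hu
  have z0 : |u - u| < δ u := by rw [sub_self, abs_zero]; exact hδ u
  have z1 : |u + 1 - (u + 1)| < δ (u + 1) := by rw [sub_self, abs_zero]; exact hδ _
  have h1 := hc u u z0 hu x hx
  have h2 := hc (u + 1) (u + 1) z1 hu.shift _ (wd_shift hx)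
  have h3 : c (u + 1) = c u := hloc.apply_eq_of_preconnectedSpace _ _
  refine words1 hx.isL hx.dj hx.cov ?_
  have h4 : cl (x (0 + 1)) (x (1 + 1)) = c (u + 1) := h2
  have e1 : (0 : Fin 6) + 1 = 1 := rfl
  have e2 : (1 : Fin 6) + 1 = 2 := rfl
  rw [e1, e2] at h4
  rw [h1, h4, h3]

/-- **A single colour is impossible.** -/
theorem star_single (C : Six6 U T z) {j b : Fin 6} (hjb : MC T z j b) (hst : Star T z {j}) :
    False := by
  obtain ⟨hne, q, hq, hTq⟩ := hjb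
  obtain ⟨θ, hθ⟩ := exists_cis (u := q - z) (by rw [← dist_eq_norm]; exact hq)
  have hpt : pt z (θ / (Real.pi / 3)) = q := by
    unfold pt
    rw [div_mul_cancel₀ _ (by positivity), ← hθ]; ring
  have h1 : ∀ᶠ v in 𝓝 (θ / (Real.pi / 3)), T (pt z v) ⊆ {j, b} := by
    rw [← hTq, ← hpt]
    exact ((continuous_pt z).tendsto _).eventually (C.irr.nhd _)
  obtain ⟨v, hv, hg⟩ := (h1.and_frequently
    (mem_closure_iff_frequently.1 (C.gn_dense _))).exists
  have h2 : T (pt z v) = {j, b} := Set.eq_of_subset_of_ncard_le hv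
    (by rw [Set.ncard_pair hne]; exact H46.two_le C _) (Set.toFinite _)
  refine hst v hg ?_
  rintro _ rfl
  left
  rw [h2]
  exact Or.inl rfl

end Vale.Agent.P032.R2.H245
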