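import Vale.Agent.P032.R2.H245.Tab5
import Vale.Agent.P032.Words6.H704.Start
import Vale.Agent.P032.Words6.H46.Rules

/-!
# P032 (T2*): a clean point with six colours: the graph of disjoint broken pairs

The graph whose vertices are the broken pairs of a clean six-coloured point and whose edges are the
disjoint ones has no proper two-colouring (`no_proper`).  If one colour `i` is in no broken pair,
the broken pairs are a pentagon, or a pentagon with one chord, on the other five colours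
(`silent`).
-/

open Set Filter Topology Metric

noncomputable section

namespace Vale.Agent.P032.R2.H245

open Vale.Agent.P032.Six Vale.Agent.P032.S5.H767 Vale.Agent.P032.Words6.H704

variable {U : Fin 6 → Set ℂ} {T : ℂ → Set (Fin 6)} {z : ℂ}

/-- **No proper two-colouring.** -/
theorem no_proper (C : Six6 U T z) (φ : Set (Fin 6) → ℕ) (h2 : ∀ s, φ s < 2)
    (hφ : ∀ P Q : Set (Fin 6), (∃ x y, MC T z x y ∧ P = {x, y}) →
      (∃ x y, MC T z x y ∧ Q = {x, y}) → Disjoint P Q → φ P ≠ φ Q) : False := by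
  set cmp : (Fin 6 → Set (Fin 6)) → ℕ := fun h => φ (h 0) with hcmp
  have hinv : InvM (MC T z) cmp := by
    intro h k Q hh hh' _ _
    by_cases hk : k = 0
    · subst hk
      have a1 := hφ _ _ (hh.1 0) (hh.1 (0 + 1)) (hh.2 0)
      have a2 := hφ _ _ (hh'.1 0) (hh'.1 (0 + 1)) (hh'.2 0)
      have e1 : Function.update h 0 Q (0 + 1) = h (0 + 1) :=
        Function.update_of_ne (by decide) _ _
      rw [e1] at a2
      have b1 := h2 (h 0)
      have b2 := h2 (h (0 + 1))
      have b3 := h2 (Function.update h 0 Q 0)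
      show φ (Function.update h 0 Q 0) = φ (h 0)
      omega
    · show φ (Function.update h k Q 0) = φ (h 0)
      rw [Function.update_of_ne (Ne.symm hk)]
  have hrot : ∀ h, LegM (MC T z) h → cmp (fun k => h (k + 1)) ≠ cmp h := by
    intro h hh
    exact (hφ _ _ (hh.1 0) (hh.1 (0 + 1)) (hh.2 0)).symm
  obtain ⟨u, hu⟩ := C.exists_break hinv hrot
  have hn0 : ∀ᶠ v in 𝓝 u, T (pt z v) ⊆ T (pt z u) :=
    ((continuous_pt z).tendsto u).eventually (C.irr.nhd (pt z u))
  have hn1 : ∀ᶠ v in 𝓝 u, T (pt z (v + 1)) ⊆ T (pt z (u + 1)) := by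
    have hc : Continuous fun v : ℝ => pt z (v + 1) := (continuous_pt z).comp (by fun_prop)
    exact (hc.tendsto u).eventually (C.irr.nhd _)
  -- a generic time with the value `1` and one with the value `0`
  have key : ∀ c : ℕ, ∃ v, Gn T z v ∧ val T z cmp v ≠ c ∧ T (pt z v) ⊆ T (pt z u) ∧
      T (pt z (v + 1)) ⊆ T (pt z (u + 1)) := by
    intro c
    have h1 := hu c
    rw [Filter.not_eventually] at h1
    obtain ⟨v, hv1, hv2, hv3⟩ := (h1.and_eventually (hn0.and hn1)).exists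
    rw [Classical.not_imp] at hv1
    exact ⟨v, hv1.1, hv1.2, hv2, hv3⟩
  have sel : ∀ v, Gn T z v → T (pt z v) ⊆ T (pt z u) → T (pt z (v + 1)) ⊆ T (pt z (u + 1)) →
      ∃ P Q : Set (Fin 6), (∃ x y, MC T z x y ∧ P = {x, y}) ∧ (∃ x y, MC T z x y ∧ Q = {x, y}) ∧
        Disjoint P Q ∧ P ⊆ T (pt z u) ∧ Q ⊆ T (pt z (u + 1)) ∧ val T z cmp v = φ P := by
    intro v hv h3 h4
    obtain ⟨a, ha⟩ := C.exists_sel v
    have hl := C.legM hv ha
    have e0 : v + ((0 : Fin 6).val : ℝ) = v := by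
      show v + ((0 : ℕ) : ℝ) = v
      push_cast; ring
    have e1 : v + ((1 : Fin 6).val : ℝ) = v + 1 := by
      show v + ((1 : ℕ) : ℝ) = v + 1
      push_cast; ring
    have h5 := (ha 0).2
    have h6 := (ha 1).2
    rw [e0] at h5
    rw [e1] at h6
    exact ⟨a 0, a 1, (ha 0).1, (ha 1).1, hl.2 0, h5.trans h3, h6.trans h4, C.val_eq hinv hv ha⟩
  obtain ⟨v, hv1, hv2, hv3, hv4⟩ := key 0
  obtain ⟨w, hw1, hw2, hw3, hw4⟩ := key 1
  obtain ⟨P, Q, hP, hQ, hPQ, hP0, hQ1, hval⟩ := sel v hv1 hv3 hv4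
  obtain ⟨P', Q', hP', hQ', hPQ', hP0', hQ1', hval'⟩ := sel w hw1 hw3 hw4
  rw [hval] at hv2
  rw [hval'] at hw2
  have k1 := h2 P
  have k2 := h2 P'
  have k3 := h2 Q
  have k4 := h2 Q'
  have k5 := hφ P Q hP hQ hPQ
  have k6 := hφ P' Q' hP' hQ' hPQ'
  have f1 : φ P = 1 := by omega
  have f2 : φ P' = 0 := by omega
  have f3 : φ Q = 0 := by omega
  have f4 : φ Q' = 1 := by omega
  have hR0 := Words6.H46.le_three C u
  have hR1 := Words6.H46.le_three C (u + 1)
  have hR := Words6.H46.nb_one C u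
  rw [Set.ncard_le_one (Set.toFinite _)] at hR
  -- `P'` and `Q` meet, `P` and `Q'` meet
  have m1 : (P' ∩ Q).Nonempty := by
    by_contra hcon
    rw [Set.not_nonempty_iff_eq_empty, ← Set.disjoint_iff_inter_eq_empty] at hcon
    exact hφ P' Q hP' hQ hcon (by rw [f2, f3])
  have m2 : (P ∩ Q').Nonempty := by
    by_contra hcon
    rw [Set.not_nonempty_iff_eq_empty, ← Set.disjoint_iff_inter_eq_empty] at hcon
    exact hφ P Q' hP hQ' hcon (by rw [f1, f4])
  obtain ⟨s, hs1, hs2⟩ := m1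
  obtain ⟨t, ht1, ht2⟩ := m2
  have hst : s = t := hR s ⟨hP0' hs1, hQ1 hs2⟩ t ⟨hP0 ht1, hQ1' ht2⟩
  subst hst
  exact Set.disjoint_left.1 hPQ ht1 hs2

/-- the pairs on the five colours other than `i` -/
theorem pair_inj {i : Fin 6} {a b c d : Fin 5}
    (h : ({i.succAbove a, i.succAbove b} : Set (Fin 6)) = {i.succAbove c, i.succAbove d}) :
    (a = c ∧ b = d) ∨ (a = d ∧ b = c) := by
  have hinj := Fin.succAbove_right_injective (p := i)
  rcases Set.pair_eq_pair_iff.1 h with ⟨h1, h2⟩ | ⟨h1, h2⟩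
  · exact Or.inl ⟨hinj h1, hinj h2⟩
  · exact Or.inr ⟨hinj h1, hinj h2⟩

/-- **A silent colour.** If the colour `i` is in no broken pair of a clean point with six colours,
the broken pairs are a pentagon or a pentagon with one chord on the other five. -/
theorem silent (C : Six6 U T z)
    (hmin : ∀ z, 4 ≤ (T z).ncard → ∀ s, s ⊆ T z → s ≠ T z →
      ¬ ∀ᶠ w in 𝓝 z, ∃ i ∈ s, w ∈ U i ∨ (w ∈ XX U ∧ i ∈ Pal U w)) {i : Fin 6}
    (hi : ∀ j, ¬ MC T z i j) :
    ∃ f : Fin 5 → Fin 6, Function.Injective f ∧ (∀ a, f a ≠ i) ∧ (∀ j, j = i ∨ ∃ a, f a = j) ∧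
      ((∀ a b, MC T z (f a) (f b) ↔ (b = a + 1 ∨ a = b + 1)) ∨
        (∀ a b, MC T z (f a) (f b) ↔
          (b = a + 1 ∨ a = b + 1 ∨ (a = 0 ∧ b = 2) ∨ (a = 2 ∧ b = 0)))) := by
  classical
  have hinj := Fin.succAbove_right_injective (p := i)
  have hne : ∀ a : Fin 5, i.succAbove a ≠ i := fun a => Fin.succAbove_ne i a
  have hiR : ∀ j, ¬ MC T z j i := fun j h => hi j (mc_symm h)
  -- the relation on five vertices
  have htab := tab5 (fun a b => MC T z (i.succAbove a) (i.succAbove b)) (fun a b h => mc_symm h)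
    (fun a h => h.1 rfl) (by
      intro X Y hX hY hXY hu hall
      refine C.mc_cut hmin (i.succAbove '' X) (i.succAbove '' Y) (hX.image _) (hY.image _)
        ((Set.disjoint_image_iff hinj).2 hXY) ?_ ?_
      · rw [← Set.image_union, hu, Set.ncard_image_of_injective _ hinj, Set.ncard_univ,
          Nat.card_eq_fintype_card, Fintype.card_fin]
      · rintro _ ⟨a, ha, rfl⟩ _ ⟨b, hb, rfl⟩
        exact hall a ha b hb)
  have hsurj : ∀ g : Fin 5 → Fin 5, Function.Injective g → ∀ j, j = i ∨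
      ∃ a, i.succAbove (g a) = j := by
    intro g hg j
    by_cases hj : j = i
    · exact Or.inl hj
    · obtain ⟨a, ha⟩ := Fin.exists_succAbove_eq hj
      obtain ⟨b, hb⟩ := (Finite.injective_iff_surjective.1 hg) a
      exact Or.inr ⟨b, by rw [hb, ha]⟩
  rcases htab with ⟨φ, hφs, hφ⟩ | ⟨g, hg, hM⟩ | ⟨g, hg, hM⟩
  · exfalso
    refine no_proper C (fun S => if ∃ a b : Fin 5, S = {i.succAbove a, i.succAbove b} ∧
      φ a b = true then 1 else 0) ?_ ?_
    · intro s
      split_ifs <;> omega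
    · intro P Q hP hQ hPQ
      obtain ⟨x, y, hxy, rfl⟩ := hP
      obtain ⟨x', y', hxy', rfl⟩ := hQ
      have hx : x ≠ i := fun h => hi y (h ▸ hxy)
      have hy : y ≠ i := fun h => hiR x (h ▸ hxy)
      have hx' : x' ≠ i := fun h => hi y' (h ▸ hxy')
      have hy' : y' ≠ i := fun h => hiR x' (h ▸ hxy')
      obtain ⟨a, rfl⟩ := Fin.exists_succAbove_eq hx
      obtain ⟨b, rfl⟩ := Fin.exists_succAbove_eq hy
      obtain ⟨c, rfl⟩ := Fin.exists_succAbove_eq hx'
      obtain ⟨d, rfl⟩ := Fin.exists_succAbove_eq hy'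
      have hval : ∀ a b : Fin 5, (∃ a' b' : Fin 5, ({i.succAbove a, i.succAbove b} : Set (Fin 6)) =
          {i.succAbove a', i.succAbove b'} ∧ φ a' b' = true) ↔ φ a b = true := by
        intro a b
        constructor
        · rintro ⟨a', b', h1, h2⟩
          rcases pair_inj h1 with ⟨rfl, rfl⟩ | ⟨rfl, rfl⟩
          · exact h2
          · rw [hφs]; exact h2
        · exact fun h => ⟨a, b, rfl, h⟩
      have hd : a ≠ c ∧ a ≠ d ∧ b ≠ c ∧ b ≠ d := by
        refine ⟨?_, ?_, ?_, ?_⟩ <;> rintro rfl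
        · exact Set.disjoint_left.1 hPQ (Or.inl rfl) (Or.inl rfl)
        · exact Set.disjoint_left.1 hPQ (Or.inl rfl) (Or.inr rfl)
        · exact Set.disjoint_left.1 hPQ (Or.inr rfl) (Or.inl rfl)
        · exact Set.disjoint_left.1 hPQ (Or.inr rfl) (Or.inr rfl)
      have h1 := hφ a b c d hxy hxy' hd.1 hd.2.1 hd.2.2.1 hd.2.2.2
      simp only [hval]
      cases h3 : φ a b <;> cases h4 : φ c d <;> simp_all
  · exact ⟨fun a => i.succAbove (g a), hinj.comp hg, fun a => hne _, hsurj g hg, Or.inl hM⟩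
  · exact ⟨fun a => i.succAbove (g a), hinj.comp hg, fun a => hne _, hsurj g hg, Or.inr hM⟩

end Vale.Agent.P032.R2.H245
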