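import Mathlib

/-!
# P032 (T2*): graphs on five vertices

A relation on five colours whose complement is connected, and whose graph of disjoint pairs is not
two-colourable, is a pentagon or a pentagon with one chord.
-/

namespace Vale.Agent.P032.R2.H245

/-- the relation on five vertices with ten given values -/
def G5 (b0 b1 b2 b3 b4 b5 b6 b7 b8 b9 : Bool) (a b : Fin 5) : Bool :=
  match a, b with
  | 0, 1 => b0 | 1, 0 => b0
  | 0, 2 => b1 | 2, 0 => b1
  | 0, 3 => b2 | 3, 0 => b2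
  | 0, 4 => b3 | 4, 0 => b3
  | 1, 2 => b4 | 2, 1 => b4
  | 1, 3 => b5 | 3, 1 => b5
  | 1, 4 => b6 | 4, 1 => b6
  | 2, 3 => b7 | 3, 2 => b7
  | 2, 4 => b8 | 4, 2 => b8
  | 3, 4 => b9 | 4, 3 => b9
  | _, _ => false

/-- the 15 cuts of five vertices -/
def cuts : List (List (Fin 5) × List (Fin 5)) :=
  [([0], [1, 2, 3, 4]), ([1], [0, 2, 3, 4]), ([2], [0, 1, 3, 4]), ([3], [0, 1, 2, 4]),
    ([4], [0, 1, 2, 3]), ([0, 1], [2, 3, 4]), ([0, 2], [1, 3, 4]), ([0, 3], [1, 2, 4]),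
    ([0, 4], [1, 2, 3]), ([1, 2], [0, 3, 4]), ([1, 3], [0, 2, 4]), ([1, 4], [0, 2, 3]),
    ([2, 3], [0, 1, 4]), ([2, 4], [0, 1, 3]), ([3, 4], [0, 1, 2])]

/-- the 15 pairs of disjoint pairs -/
def dps : List ((Fin 5 × Fin 5) × Fin 5 × Fin 5) :=
  [((0, 1), 2, 3), ((0, 1), 2, 4), ((0, 1), 3, 4), ((0, 2), 1, 3), ((0, 2), 1, 4), ((0, 2), 3, 4),
    ((0, 3), 1, 2), ((0, 3), 1, 4), ((0, 3), 2, 4), ((0, 4), 1, 2), ((0, 4), 1, 3), ((0, 4), 2, 3),
    ((1, 2), 3, 4), ((1, 3), 2, 4), ((1, 4), 2, 3)]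

/-- five two-colourings of the pairs -/
def cols : List (Fin 5 → Fin 5 → Bool) :=
  [G5 true true true true false false false false false false,
    G5 true false false false true true true false false false,
    G5 true true true false true true false true false false,
    G5 true true false true true false true false true false,
    G5 false true false false true false false true true false]

/-- the cyclic orders with a first vertex, up to the reflection fixing the pair 0, 2 -/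
def ords : List (Fin 5 → Fin 5) :=
  [![0, 1, 2, 3, 4], ![0, 1, 2, 4, 3], ![0, 1, 3, 2, 4], ![0, 1, 3, 4, 2], ![0, 1, 4, 2, 3],
    ![0, 1, 4, 3, 2], ![0, 2, 1, 3, 4], ![0, 2, 1, 4, 3], ![0, 2, 3, 1, 4], ![0, 2, 3, 4, 1],
    ![0, 2, 4, 1, 3], ![0, 2, 4, 3, 1], ![0, 3, 1, 2, 4], ![0, 3, 1, 4, 2], ![0, 3, 2, 1, 4],
    ![0, 3, 2, 4, 1], ![0, 3, 4, 1, 2], ![0, 3, 4, 2, 1], ![0, 4, 1, 2, 3], ![0, 4, 1, 3, 2],
    ![0, 4, 2, 1, 3], ![0, 4, 2, 3, 1], ![0, 4, 3, 1, 2], ![0, 4, 3, 2, 1], ![1, 0, 2, 3, 4],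
    ![1, 0, 2, 4, 3], ![1, 0, 3, 2, 4], ![1, 0, 3, 4, 2], ![1, 0, 4, 2, 3], ![1, 0, 4, 3, 2],
    ![1, 2, 3, 0, 4], ![1, 2, 3, 4, 0], ![1, 2, 4, 0, 3], ![1, 2, 4, 3, 0], ![1, 3, 2, 0, 4],
    ![1, 3, 2, 4, 0], ![1, 3, 4, 0, 2], ![1, 3, 4, 2, 0], ![1, 4, 2, 0, 3], ![1, 4, 2, 3, 0],
    ![1, 4, 3, 0, 2], ![1, 4, 3, 2, 0], ![2, 0, 3, 1, 4], ![2, 0, 3, 4, 1], ![2, 0, 4, 1, 3],
    ![2, 0, 4, 3, 1], ![2, 1, 3, 0, 4], ![2, 1, 3, 4, 0], ![2, 1, 4, 0, 3], ![2, 1, 4, 3, 0],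
    ![2, 3, 4, 0, 1], ![2, 3, 4, 1, 0], ![2, 4, 3, 0, 1], ![2, 4, 3, 1, 0], ![3, 0, 4, 1, 2],
    ![3, 0, 4, 2, 1], ![3, 1, 4, 0, 2], ![3, 1, 4, 2, 0], ![3, 2, 4, 0, 1], ![3, 2, 4, 1, 0]]

/-- pentagon -/
def pen (a b : Fin 5) : Bool := b = a + 1 || a = b + 1

/-- pentagon with one chord -/
def hou (a b : Fin 5) : Bool := pen a b || (a = 0 && b = 2) || (a = 2 && b = 0)

/-- the check -/
def chk (g : Fin 5 → Fin 5 → Bool) : Bool :=
  (cuts.any fun X => X.1.all fun a => X.2.all fun b => g a b) ||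
  (cols.any fun φ => dps.all fun e => !(g e.1.1 e.1.2) || !(g e.2.1 e.2.2) ||
    (φ e.1.1 e.1.2 != φ e.2.1 e.2.2)) ||
  (ords.any fun f => (List.finRange 5).all fun a => (List.finRange 5).all fun b =>
    g (f a) (f b) == pen a b) ||
  (ords.any fun f => (List.finRange 5).all fun a => (List.finRange 5).all fun b =>
    g (f a) (f b) == hou a b)

set_option maxRecDepth 100000 in
theorem chk_all : ∀ b0 b1 b2 b3 b4 b5 b6 b7 b8 b9 : Bool,
    chk (G5 b0 b1 b2 b3 b4 b5 b6 b7 b8 b9) = true := by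
  decide +kernel

theorem cuts_chk : (cuts.all fun X => !X.1.isEmpty && !X.2.isEmpty &&
    (X.1.all fun a => !X.2.contains a) &&
    (List.finRange 5).all fun a => X.1.contains a || X.2.contains a) = true := by decide +kernel

theorem cuts_ok : ∀ X ∈ cuts, X.1 ≠ [] ∧ X.2 ≠ [] ∧ (∀ a ∈ X.1, a ∉ X.2) ∧
    ∀ a, a ∈ X.1 ∨ a ∈ X.2 := by
  intro X hX
  have h := List.all_eq_true.1 cuts_chk X hX
  simp only [Bool.and_eq_true, Bool.not_eq_true', List.isEmpty_eq_false_iff, List.all_eq_true,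
    List.contains_eq_mem, decide_eq_false_iff_not, Bool.or_eq_true, decide_eq_true_eq] at h
  exact ⟨h.1.1.1, h.1.1.2, h.1.2, fun a => h.2 a (List.mem_finRange a)⟩

theorem cols_chk : (cols.all fun φ => (List.finRange 5).all fun a => (List.finRange 5).all fun b =>
    φ a b == φ b a) = true := by decide +kernel

theorem cols_symm : ∀ φ ∈ cols, ∀ a b, φ a b = φ b a := by
  intro φ hφ a b
  have h := List.all_eq_true.1 (List.all_eq_true.1 (List.all_eq_true.1 cols_chk φ hφ) a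
    (List.mem_finRange a)) b (List.mem_finRange b)
  exact beq_iff_eq.1 h

/-- unordered equality of pairs -/
def ueq (p : Fin 5 × Fin 5) (a b : Fin 5) : Bool := (p.1 == a && p.2 == b) || (p.1 == b && p.2 == a)

theorem dps_chk : ((List.finRange 5).all fun a => (List.finRange 5).all fun b =>
    (List.finRange 5).all fun c => (List.finRange 5).all fun d =>
    a == b || c == d || a == c || a == d || b == c || b == d ||
      dps.any fun e => (ueq e.1 a b && ueq e.2 c d) || (ueq e.1 c d && ueq e.2 a b)) = true := by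
  decide +kernel

/-- two disjoint pairs are in the list, in some order -/
theorem dps_ok (a b c d : Fin 5) (h1 : a ≠ b) (h2 : c ≠ d) (h3 : a ≠ c) (h4 : a ≠ d) (h5 : b ≠ c)
    (h6 : b ≠ d) : ∃ e ∈ dps, ((e.1 = (a, b) ∨ e.1 = (b, a)) ∧ (e.2 = (c, d) ∨ e.2 = (d, c))) ∨
      ((e.1 = (c, d) ∨ e.1 = (d, c)) ∧ (e.2 = (a, b) ∨ e.2 = (b, a))) := by
  have h := List.all_eq_true.1 (List.all_eq_true.1 (List.all_eq_true.1 (List.all_eq_true.1
    dps_chk a (List.mem_finRange a)) b (List.mem_finRange b)) c (List.mem_finRange c)) d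
    (List.mem_finRange d)
  simp only [Bool.or_eq_true, beq_iff_eq, h1, h2, h3, h4, h5, h6, false_or, List.any_eq_true] at h
  obtain ⟨e, he, h⟩ := h
  refine ⟨e, he, ?_⟩
  simpa only [ueq, Bool.or_eq_true, Bool.and_eq_true, beq_iff_eq, Prod.ext_iff] using h

theorem ords_chk : (ords.all fun f => (List.finRange 5).all fun a => (List.finRange 5).all fun b =>
    f a != f b || a == b) = true := by decide +kernel

theorem ords_inj : ∀ f ∈ ords, ∀ a b, f a = f b → a = b := by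
  intro f hf a b hab
  have h := List.all_eq_true.1 (List.all_eq_true.1 (List.all_eq_true.1 ords_chk f hf) a
    (List.mem_finRange a)) b (List.mem_finRange b)
  simp only [hab, bne_self_eq_false, Bool.false_or, beq_iff_eq] at h
  exact h

/-- **The table.** -/
theorem tab5 (M : Fin 5 → Fin 5 → Prop) (hs : ∀ a b, M a b → M b a) (hi : ∀ a, ¬ M a a)
    (hcut : ∀ X Y : Set (Fin 5), X.Nonempty → Y.Nonempty → Disjoint X Y → X ∪ Y = Set.univ →
      ¬ ∀ x ∈ X, ∀ y ∈ Y, M x y) :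
    (∃ φ : Fin 5 → Fin 5 → Bool, (∀ a b, φ a b = φ b a) ∧ ∀ a b c d, M a b → M c d →
      a ≠ c → a ≠ d → b ≠ c → b ≠ d → φ a b ≠ φ c d) ∨
    (∃ f : Fin 5 → Fin 5, Function.Injective f ∧ ∀ a b, M (f a) (f b) ↔ (b = a + 1 ∨ a = b + 1)) ∨
    (∃ f : Fin 5 → Fin 5, Function.Injective f ∧ ∀ a b, M (f a) (f b) ↔
      (b = a + 1 ∨ a = b + 1 ∨ (a = 0 ∧ b = 2) ∨ (a = 2 ∧ b = 0))) := by
  classical
  obtain ⟨g, hg, hchk⟩ : ∃ g : Fin 5 → Fin 5 → Bool, (∀ a b, g a b = true ↔ M a b) ∧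
      chk g = true := by
    refine ⟨_, ?_, chk_all (decide (M 0 1)) (decide (M 0 2)) (decide (M 0 3)) (decide (M 0 4))
      (decide (M 1 2)) (decide (M 1 3)) (decide (M 1 4)) (decide (M 2 3)) (decide (M 2 4))
      (decide (M 3 4))⟩
    intro a b
    have hsy : ∀ a b, M a b ↔ M b a := fun a b => ⟨hs a b, hs b a⟩
    have hf : ∀ a, (false = true) ↔ M a a := fun a => ⟨fun h => absurd h (by decide),
      fun h => absurd h (hi a)⟩
    fin_cases a <;> fin_cases b <;>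
      first
      | exact hf _
      | exact decide_eq_true_iff
      | exact decide_eq_true_iff.trans (hsy _ _)
  have hgs : ∀ a b, g a b = g b a := by
    intro a b
    rw [Bool.eq_iff_iff, hg, hg]
    exact ⟨hs a b, hs b a⟩
  unfold chk at hchk
  simp only [Bool.or_eq_true] at hchk
  rcases hchk with ((h | h) | h) | h
  · exfalso
    rw [List.any_eq_true] at h
    obtain ⟨X, hX, h⟩ := h
    obtain ⟨h1, h2, h3, h4⟩ := cuts_ok X hX
    refine hcut {a | a ∈ X.1} {a | a ∈ X.2} ?_ ?_ ?_ ?_ ?_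
    · obtain ⟨a, ha⟩ := List.exists_mem_of_ne_nil _ h1
      exact ⟨a, ha⟩
    · obtain ⟨a, ha⟩ := List.exists_mem_of_ne_nil _ h2
      exact ⟨a, ha⟩
    · rw [Set.disjoint_left]
      exact fun a ha hb => h3 a ha hb
    · exact Set.eq_univ_of_forall h4
    · intro x hx y hy
      rw [List.all_eq_true] at h
      have h5 := h x hx
      rw [List.all_eq_true] at h5
      exact (hg _ _).1 (h5 y hy)
  · left
    rw [List.any_eq_true] at h
    obtain ⟨φ, hφ, h⟩ := h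
    have hφs := cols_symm φ hφ
    refine ⟨φ, hφs, ?_⟩
    intro a b c d hab hcd h1 h2 h3 h4
    have hne : a ≠ b := fun h => hi b (h ▸ hab)
    have hne' : c ≠ d := fun h => hi d (h ▸ hcd)
    rw [List.all_eq_true] at h
    obtain ⟨e, he, h5⟩ := dps_ok a b c d hne hne' h1 h2 h3 h4
    have h6 := h e he
    have h7 : g e.1.1 e.1.2 = true ∧ g e.2.1 e.2.2 = true ∧
        ((φ e.1.1 e.1.2 = φ a b ∧ φ e.2.1 e.2.2 = φ c d) ∨
          (φ e.1.1 e.1.2 = φ c d ∧ φ e.2.1 e.2.2 = φ a b)) := by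
      have k1 := (hg a b).2 hab
      have k2 := (hg c d).2 hcd
      rcases h5 with ⟨h8 | h8, h9 | h9⟩ | ⟨h8 | h8, h9 | h9⟩ <;> rw [h8, h9] <;>
        simp only [k1, k2, hgs b a, hgs d c, hφs b a, hφs d c, and_self, true_or, or_true]
    obtain ⟨k1, k2, k3⟩ := h7
    rw [k1, k2] at h6
    simp only [Bool.not_true, Bool.false_or, bne_iff_ne, ne_eq] at h6
    rcases k3 with ⟨k4, k5⟩ | ⟨k4, k5⟩
    · rw [k4, k5] at h6; exact h6
    · rw [k4, k5] at h6; exact fun h => h6 h.symm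
  · right; left
    rw [List.any_eq_true] at h
    obtain ⟨f, hf, h⟩ := h
    refine ⟨f, fun a b => ords_inj f hf a b, fun a b => ?_⟩
    rw [List.all_eq_true] at h
    have h1 := h a (List.mem_finRange a)
    rw [List.all_eq_true] at h1
    have h2 := h1 b (List.mem_finRange b)
    rw [beq_iff_eq] at h2
    rw [← hg, h2]
    simp only [pen, Bool.or_eq_true, decide_eq_true_eq]
  · right; right
    rw [List.any_eq_true] at h
    obtain ⟨f, hf, h⟩ := h
    refine ⟨f, fun a b => ords_inj f hf a b, fun a b => ?_⟩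
    rw [List.all_eq_true] at h
    have h1 := h a (List.mem_finRange a)
    rw [List.all_eq_true] at h1
    have h2 := h1 b (List.mem_finRange b)
    rw [beq_iff_eq] at h2
    rw [← hg, h2]
    simp only [hou, pen, Bool.or_eq_true, Bool.and_eq_true, decide_eq_true_eq, or_assoc]

end Vale.Agent.P032.R2.H245
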