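import Mathlib

/-!
# P032 (T2*): words over the six letters of the house

Letters are bit masks on the colours `0, .., 4`: `3 = 01`, `6 = 12`, `12 = 23`, `24 = 34`,
`17 = 40`, `5 = 02`.  A good word has disjoint neighbours and no place at which the letters of the
place and of the opposite one cover `{1, 3, 4}`.
-/

namespace Vale.Agent.P032.R2.H245

/-- the number of colours of a mask -/
def pc (n : ℕ) : ℕ := n % 2 + n / 2 % 2 + n / 4 % 2 + n / 8 % 2 + n / 16 % 2

/-- quantifier over the six letters -/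
def all6 (p : ℕ → Bool) : Bool := p 3 && p 6 && p 12 && p 24 && p 17 && p 5

/-- the six letters -/
def IsL (n : ℕ) : Prop := n = 3 ∨ n = 6 ∨ n = 12 ∨ n = 24 ∨ n = 17 ∨ n = 5

theorem all6_spec {p : ℕ → Bool} (h : all6 p = true) {n : ℕ} (hn : IsL n) : p n = true := by
  unfold all6 at h
  simp only [Bool.and_eq_true] at h
  obtain ⟨⟨⟨⟨⟨h1, h2⟩, h3⟩, h4⟩, h5⟩, h6⟩ := h
  rcases hn with rfl | rfl | rfl | rfl | rfl | rfl <;> assumption

/-- disjoint letters -/
def dj (x y : ℕ) : Bool := Nat.beq (Nat.land x y) 0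

/-- two opposite letters cover `{1, 3, 4}` -/
def cov (x y : ℕ) : Bool := Nat.beq (Nat.land (Nat.lor x y) 26) 26

/-- at most three colours -/
def c3 (x y : ℕ) : Bool := Nat.ble (pc (Nat.lor x y)) 3

/-- at most one common colour -/
def n1 (x y x' y' : ℕ) : Bool := Nat.ble (pc (Nat.land (Nat.lor x y) (Nat.lor x' y'))) 1

/-- the class of a word, from its first two letters -/
def cl (x y : ℕ) : ℕ :=
  bif Nat.beq x 3 || Nat.beq x 17 then 0 else
  bif Nat.beq x 6 || Nat.beq x 12 then 1 else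
  bif Nat.beq x 24 then (bif Nat.beq y 6 then 0 else bif Nat.beq y 3 then 1 else 2) else 3

/-- the word is `a b a b a b` -/
def per (x0 x1 x2 x3 x4 x5 a b : ℕ) : Bool :=
  Nat.beq x0 a && Nat.beq x1 b && Nat.beq x2 a && Nat.beq x3 b && Nat.beq x4 a && Nat.beq x5 b

/-- one of the two words alternates between the chord and `34`, the other one below the same
palettes -/
def alt1 (x0 x1 x2 x3 x4 x5 y0 y1 y2 y3 y4 y5 : ℕ) : Bool :=
  (per x0 x1 x2 x3 x4 x5 5 24 && (per y0 y1 y2 y3 y4 y5 3 12 || per y0 y1 y2 y3 y4 y5 6 17)) ||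
  (per x0 x1 x2 x3 x4 x5 24 5 && (per y0 y1 y2 y3 y4 y5 12 3 || per y0 y1 y2 y3 y4 y5 17 6))

/-- the check for two words -/
def chk2 : Bool :=
  all6 fun x0 => all6 fun y0 => !c3 x0 y0 ||
  all6 fun x1 => !dj x0 x1 || all6 fun y1 => !dj y0 y1 || !c3 x1 y1 || !n1 x0 y0 x1 y1 ||
  Nat.beq (cl x0 x1) (cl y0 y1) ||
  all6 fun x2 => !dj x1 x2 || all6 fun y2 => !dj y1 y2 || !c3 x2 y2 || !n1 x1 y1 x2 y2 ||
  all6 fun x3 => !dj x2 x3 || cov x0 x3 || all6 fun y3 => !dj y2 y3 || cov y0 y3 || !c3 x3 y3 ||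
    !n1 x2 y2 x3 y3 ||
  all6 fun x4 => !dj x3 x4 || cov x1 x4 || all6 fun y4 => !dj y3 y4 || cov y1 y4 || !c3 x4 y4 ||
    !n1 x3 y3 x4 y4 ||
  all6 fun x5 => !dj x4 x5 || cov x2 x5 || !dj x5 x0 || all6 fun y5 => !dj y4 y5 || cov y2 y5 ||
    !dj y5 y0 || !c3 x5 y5 || !n1 x4 y4 x5 y5 || !n1 x5 y5 x0 y0 ||
  alt1 x0 x1 x2 x3 x4 x5 y0 y1 y2 y3 y4 y5 || alt1 y0 y1 y2 y3 y4 y5 x0 x1 x2 x3 x4 x5

set_option maxRecDepth 100000 in
theorem chk2_ok : chk2 = true := by decide +kernel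

/-- the check for the rotation -/
def chk1 : Bool :=
  all6 fun x0 => all6 fun x1 => !dj x0 x1 || all6 fun x2 => !dj x1 x2 ||
  !Nat.beq (cl x0 x1) (cl x1 x2) ||
  all6 fun x3 => !dj x2 x3 || cov x0 x3 || all6 fun x4 => !dj x3 x4 || cov x1 x4 ||
  all6 fun x5 => !dj x4 x5 || cov x2 x5 || !dj x5 x0

set_option maxRecDepth 100000 in
theorem chk1_ok : chk1 = true := by decide +kernel

/-- **Two words below the same palettes.** -/
theorem words2 {x y : Fin 6 → ℕ} (hx : ∀ k, IsL (x k)) (hy : ∀ k, IsL (y k))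
    (dx : ∀ k, dj (x k) (x (k + 1)) = true) (dy : ∀ k, dj (y k) (y (k + 1)) = true)
    (sx : ∀ k, cov (x k) (x (k + 3)) = false) (sy : ∀ k, cov (y k) (y (k + 3)) = false)
    (h3 : ∀ k, c3 (x k) (y k) = true)
    (h1 : ∀ k, n1 (x k) (y k) (x (k + 1)) (y (k + 1)) = true) :
    cl (x 0) (x 1) = cl (y 0) (y 1) ∨
      alt1 (x 0) (x 1) (x 2) (x 3) (x 4) (x 5) (y 0) (y 1) (y 2) (y 3) (y 4) (y 5) = true ∨
      alt1 (y 0) (y 1) (y 2) (y 3) (y 4) (y 5) (x 0) (x 1) (x 2) (x 3) (x 4) (x 5) = true := by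
  have h := chk2_ok
  unfold chk2 at h
  have a0 : dj (x 0) (x 1) = true := dx 0
  have a1 : dj (x 1) (x 2) = true := dx 1
  have a2 : dj (x 2) (x 3) = true := dx 2
  have a3 : dj (x 3) (x 4) = true := dx 3
  have a4 : dj (x 4) (x 5) = true := dx 4
  have a5 : dj (x 5) (x 0) = true := dx 5
  have b0 : dj (y 0) (y 1) = true := dy 0
  have b1 : dj (y 1) (y 2) = true := dy 1
  have b2 : dj (y 2) (y 3) = true := dy 2
  have b3 : dj (y 3) (y 4) = true := dy 3
  have b4 : dj (y 4) (y 5) = true := dy 4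
  have b5 : dj (y 5) (y 0) = true := dy 5
  have s0 : cov (x 0) (x 3) = false := sx 0
  have s1 : cov (x 1) (x 4) = false := sx 1
  have s2 : cov (x 2) (x 5) = false := sx 2
  have t0 : cov (y 0) (y 3) = false := sy 0
  have t1 : cov (y 1) (y 4) = false := sy 1
  have t2 : cov (y 2) (y 5) = false := sy 2
  have n0 : n1 (x 0) (y 0) (x 1) (y 1) = true := h1 0
  have n1' : n1 (x 1) (y 1) (x 2) (y 2) = true := h1 1
  have n2 : n1 (x 2) (y 2) (x 3) (y 3) = true := h1 2
  have n3 : n1 (x 3) (y 3) (x 4) (y 4) = true := h1 3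
  have n4 : n1 (x 4) (y 4) (x 5) (y 5) = true := h1 4
  have n5 : n1 (x 5) (y 5) (x 0) (y 0) = true := h1 5
  replace h := all6_spec (all6_spec h (hx 0)) (hy 0)
  simp only [h3 0, Bool.not_true, Bool.false_or] at h
  replace h := all6_spec h (hx 1)
  simp only [a0, Bool.not_true, Bool.false_or] at h
  replace h := all6_spec h (hy 1)
  simp only [b0, h3 1, n0, Bool.not_true, Bool.false_or] at h
  by_cases hcl : cl (x 0) (x 1) = cl (y 0) (y 1)
  · exact Or.inl hcl
  have hb : Nat.beq (cl (x 0) (x 1)) (cl (y 0) (y 1)) = false := by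
    rw [← Bool.not_eq_true, Nat.beq_eq]
    exact hcl
  simp only [hb, Bool.false_or] at h
  replace h := all6_spec h (hx 2)
  simp only [a1, Bool.not_true, Bool.false_or] at h
  replace h := all6_spec h (hy 2)
  simp only [b1, h3 2, n1', Bool.not_true, Bool.false_or] at h
  replace h := all6_spec h (hx 3)
  simp only [a2, s0, Bool.not_true, Bool.false_or] at h
  replace h := all6_spec h (hy 3)
  simp only [b2, t0, h3 3, n2, Bool.not_true, Bool.false_or] at h
  replace h := all6_spec h (hx 4)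
  simp only [a3, s1, Bool.not_true, Bool.false_or] at h
  replace h := all6_spec h (hy 4)
  simp only [b3, t1, h3 4, n3, Bool.not_true, Bool.false_or] at h
  replace h := all6_spec h (hx 5)
  simp only [a4, a5, s2, Bool.not_true, Bool.false_or] at h
  replace h := all6_spec h (hy 5)
  simp only [b4, b5, t2, h3 5, n4, n5, Bool.not_true, Bool.false_or, Bool.or_eq_true] at h
  exact Or.inr h

/-- **The rotation changes the class.** -/
theorem words1 {x : Fin 6 → ℕ} (hx : ∀ k, IsL (x k)) (dx : ∀ k, dj (x k) (x (k + 1)) = true)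
    (sx : ∀ k, cov (x k) (x (k + 3)) = false) : cl (x 0) (x 1) ≠ cl (x 1) (x 2) := by
  have h := chk1_ok
  unfold chk1 at h
  have a0 : dj (x 0) (x 1) = true := dx 0
  have a1 : dj (x 1) (x 2) = true := dx 1
  have a2 : dj (x 2) (x 3) = true := dx 2
  have a3 : dj (x 3) (x 4) = true := dx 3
  have a4 : dj (x 4) (x 5) = true := dx 4
  have a5 : dj (x 5) (x 0) = true := dx 5
  have s0 : cov (x 0) (x 3) = false := sx 0
  have s1 : cov (x 1) (x 4) = false := sx 1
  have s2 : cov (x 2) (x 5) = false := sx 2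
  intro hcl
  have hb : Nat.beq (cl (x 0) (x 1)) (cl (x 1) (x 2)) = true := by
    rw [Nat.beq_eq]; exact hcl
  replace h := all6_spec (all6_spec h (hx 0)) (hx 1)
  simp only [a0, Bool.not_true, Bool.false_or] at h
  replace h := all6_spec h (hx 2)
  simp only [a1, hb, Bool.not_true, Bool.false_or] at h
  replace h := all6_spec h (hx 3)
  simp only [a2, s0, Bool.not_true, Bool.false_or] at h
  replace h := all6_spec h (hx 4)
  simp only [a3, s1, Bool.not_true, Bool.false_or] at h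
  replace h := all6_spec h (hx 5)
  simp only [a4, a5, s2, Bool.not_true, Bool.false_or] at h
  exact absurd h (by decide)

/-! ### Masks as sets -/

/-- the colours of a mask -/
def Fs (n : ℕ) : Finset (Fin 5) := Finset.univ.filter fun a => n.testBit a.val = true

theorem mem_Fs {n : ℕ} {a : Fin 5} : a ∈ Fs n ↔ n.testBit a.val = true := by
  unfold Fs
  rw [Finset.mem_filter]
  exact ⟨fun h => h.2, fun h => ⟨Finset.mem_univ _, h⟩⟩

theorem Fs_lor (m n : ℕ) : Fs (Nat.lor m n) = Fs m ∪ Fs n := by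
  ext a
  rw [Finset.mem_union, mem_Fs, mem_Fs, mem_Fs]
  have : Nat.lor m n = m ||| n := rfl
  rw [this, Nat.testBit_or, Bool.or_eq_true]

theorem Fs_land (m n : ℕ) : Fs (Nat.land m n) = Fs m ∩ Fs n := by
  ext a
  rw [Finset.mem_inter, mem_Fs, mem_Fs, mem_Fs]
  have : Nat.land m n = m &&& n := rfl
  rw [this, Nat.testBit_and, Bool.and_eq_true]

theorem Fs_card : ∀ n < 32, (Fs n).card = pc n := by decide +kernel

theorem Fs_empty : ∀ n < 32, Fs n = ∅ → n = 0 := by decide +kernel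

theorem Fs_26 : ∀ n < 32, Nat.land n 26 = 26 → (1 : Fin 5) ∈ Fs n ∧ (3 : Fin 5) ∈ Fs n ∧
    (4 : Fin 5) ∈ Fs n := by decide +kernel

theorem IsL.lt {n : ℕ} (h : IsL n) : n < 32 := by
  rcases h with rfl | rfl | rfl | rfl | rfl | rfl <;> norm_num

theorem lor_lt {m n : ℕ} (hm : m < 32) (hn : n < 32) : Nat.lor m n < 32 := by
  have : Nat.lor m n = m ||| n := rfl
  rw [this]
  exact Nat.or_lt_two_pow (n := 5) (by norm_num; exact hm) (by norm_num; exact hn)

theorem land_lt {m n : ℕ} (hm : m < 32) : Nat.land m n < 32 := by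
  have : Nat.land m n = m &&& n := rfl
  rw [this]
  exact lt_of_le_of_lt Nat.and_le_left hm

end Vale.Agent.P032.R2.H245
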